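import Vale.Agent.P233.H689.Mult
import Mathlib.MeasureTheory.Function.AEEqFun
import Mathlib.MeasureTheory.Integral.Bochner.Set
import Mathlib.MeasureTheory.Function.L2Space

/-!
# Multiplicative Markov operators are compositions with point maps
-/

open MeasureTheory Set Filter
open scoped ENNReal

namespace Vale.Agent.P233.Mult

variable {X Y : Type*} [MeasurableSpace X] [MeasurableSpace Y]

/-- the class of an indicator function -/
noncomputable def indc (m₀ : Measure Y) (B : Set Y) (hB : MeasurableSet B) : Y →ₘ[m₀] ℝ :=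
  AEEqFun.mk (B.indicator fun _ => (1 : ℝ)) (aestronglyMeasurable_const.indicator hB)

/-- A sub-Markov operator with `K (a²) = (K a)²`, from `Y` (reference measure `m₀`, second
marginal `ρ m₀`) to `(X,μ)`. -/
structure IsMultOp (m₀ : Measure Y) (μ : Measure X) (ρ : Y →ₘ[m₀] ℝ)
    (K : (Y →ₘ[m₀] ℝ) → (X →ₘ[μ] ℝ)) : Prop where
  add : ∀ a b : Y →ₘ[m₀] ℝ, MemLp a 2 m₀ → MemLp a ∞ m₀ → MemLp b 2 m₀ → MemLp b ∞ m₀ →
    K (a + b) = K a + K b
  smul : ∀ (c : ℝ) (a : Y →ₘ[m₀] ℝ), MemLp a 2 m₀ → MemLp a ∞ m₀ → K (c • a) = c • K a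
  nonneg : ∀ a : Y →ₘ[m₀] ℝ, MemLp a 2 m₀ → MemLp a ∞ m₀ → 0 ≤ a → 0 ≤ K a
  le : ∀ (a : Y →ₘ[m₀] ℝ) (c : ℝ), MemLp a 2 m₀ → MemLp a ∞ m₀ → 0 ≤ c →
    (∀ᵐ y ∂m₀, a y ≤ c) → ∀ᵐ x ∂μ, K a x ≤ c
  sq : ∀ a : Y →ₘ[m₀] ℝ, MemLp a 2 m₀ → MemLp a ∞ m₀ → K (a ^ 2) = K a ^ 2
  rho_nonneg : 0 ≤ ρ
  rho_top : MemLp ρ ∞ m₀
  int1 : ∀ a : Y →ₘ[m₀] ℝ, MemLp a 2 m₀ → MemLp a ∞ m₀ → MemLp a 1 m₀ → 0 ≤ a →
    MemLp (K a) 1 μ ∧ ∫ x, K a x ∂μ = ∫ y, ρ y * a y ∂m₀
  full : ∀ k : X →ₘ[μ] ℝ, MemLp k 2 μ → MemLp k ∞ μ → MemLp k 1 μ → 0 ≤ k → ∀ δ > 0,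
    ∃ a : Y →ₘ[m₀] ℝ, MemLp a 2 m₀ ∧ MemLp a ∞ m₀ ∧ 0 ≤ a ∧ (∀ᵐ y ∂m₀, a y ≤ 1) ∧
      ∫ x, k x ∂μ - δ ≤ ∫ x, k x * K a x ∂μ

theorem indc_ae (m₀ : Measure Y) (B : Set Y) (hB : MeasurableSet B) :
    ∀ᵐ y ∂m₀, indc m₀ B hB y = B.indicator (fun _ => (1 : ℝ)) y :=
  AEEqFun.coeFn_mk _ _

theorem indc_mem (m₀ : Measure Y) {B : Set Y} (hB : MeasurableSet B) (hf : m₀ B ≠ ∞)
    (p : ℝ≥0∞) : MemLp (indc m₀ B hB) p m₀ := by
  refine (memLp_indicator_const p hB (1 : ℝ) (Or.inr hf)).ae_eq ?_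
  exact (indc_ae m₀ B hB).mono fun y hy => hy.symm

theorem indc_nonneg (m₀ : Measure Y) {B : Set Y} (hB : MeasurableSet B) : 0 ≤ indc m₀ B hB := by
  rw [← AEEqFun.coeFn_le]
  filter_upwards [indc_ae m₀ B hB, AEEqFun.coeFn_zero (α := Y) (μ := m₀) (β := ℝ)] with y h1 h2
  rw [h1, h2]
  exact indicator_nonneg (fun _ _ => zero_le_one) y

theorem indc_le_one (m₀ : Measure Y) {B : Set Y} (hB : MeasurableSet B) :
    ∀ᵐ y ∂m₀, indc m₀ B hB y ≤ 1 := by
  filter_upwards [indc_ae m₀ B hB] with y h1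
  rw [h1]
  exact indicator_le_self' (fun _ _ => zero_le_one) y

theorem indc_sq (m₀ : Measure Y) {B : Set Y} (hB : MeasurableSet B) :
    indc m₀ B hB ^ 2 = indc m₀ B hB := by
  apply AEEqFun.ext
  filter_upwards [AEEqFun.coeFn_pow (indc m₀ B hB) 2, indc_ae m₀ B hB] with y h1 h2
  rw [h1, Pi.pow_apply, h2]
  by_cases h : y ∈ B <;> simp [h]

namespace IsMultOp

variable {m₀ : Measure Y} {μ : Measure X} {ρ : Y →ₘ[m₀] ℝ} {K : (Y →ₘ[m₀] ℝ) → (X →ₘ[μ] ℝ)}

theorem mono (h : IsMultOp m₀ μ ρ K) {a b : Y →ₘ[m₀] ℝ} (ha : MemLp a 2 m₀) (ha' : MemLp a ∞ m₀)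
    (hb : MemLp b 2 m₀) (hb' : MemLp b ∞ m₀) (hab : a ≤ b) : K a ≤ K b := by
  have hs : MemLp (b - a : Y →ₘ[m₀] ℝ) 2 m₀ := (hb.sub ha).ae_eq (AEEqFun.coeFn_sub b a).symm
  have hs' : MemLp (b - a : Y →ₘ[m₀] ℝ) ∞ m₀ := (hb'.sub ha').ae_eq (AEEqFun.coeFn_sub b a).symm
  have h0 : 0 ≤ b - a := by
    rw [← AEEqFun.coeFn_le] at hab ⊢
    filter_upwards [hab, AEEqFun.coeFn_sub b a, AEEqFun.coeFn_zero (α := Y) (μ := m₀) (β := ℝ)]
      with y h1 h2 h3
    rw [h2, h3, Pi.sub_apply, Pi.zero_apply]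
    linarith
  have e : K b = K a + K (b - a) := by
    rw [← h.add a (b - a) ha ha' hs hs']
    congr 1
    abel
  have hn := h.nonneg _ hs hs' h0
  rw [← AEEqFun.coeFn_le] at hn ⊢
  filter_upwards [hn, AEEqFun.coeFn_add (K a) (K (b - a)),
    AEEqFun.coeFn_zero (α := X) (μ := μ) (β := ℝ)] with x h1 h2 h3
  rw [e, h2, Pi.add_apply]
  rw [h3] at h1
  simp only [Pi.zero_apply] at h1
  linarith

theorem indc_01 (h : IsMultOp m₀ μ ρ K) {B : Set Y} (hB : MeasurableSet B) (hf : m₀ B ≠ ∞) :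
    ∀ᵐ x ∂μ, K (indc m₀ B hB) x = 0 ∨ K (indc m₀ B hB) x = 1 := by
  have e := h.sq (indc m₀ B hB) (indc_mem m₀ hB hf 2) (indc_mem m₀ hB hf ∞)
  rw [indc_sq] at e
  filter_upwards [AEEqFun.coeFn_pow (K (indc m₀ B hB)) 2] with x hx
  rw [← e, Pi.pow_apply] at hx
  have h2 : K (indc m₀ B hB) x * (K (indc m₀ B hB) x - 1) = 0 := by nlinarith
  rcases mul_eq_zero.mp h2 with h3 | h3
  · exact Or.inl h3
  · exact Or.inr (by linarith)

open Classical in
/-- the event at the source -/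
noncomputable def TT (K : (Y →ₘ[m₀] ℝ) → (X →ₘ[μ] ℝ)) (B : Set Y) : Set X :=
  if hB : MeasurableSet B then {x | K (indc m₀ B hB) x = 1} else ∅

theorem TT_eq {B : Set Y} (hB : MeasurableSet B) : TT K B = {x | K (indc m₀ B hB) x = 1} :=
  dif_pos hB

theorem TT_meas {B : Set Y} (hB : MeasurableSet B) : MeasurableSet (TT K B) := by
  rw [TT_eq hB]
  exact measurableSet_eq_fun (AEEqFun.measurable _) measurable_const

theorem K_indc (h : IsMultOp m₀ μ ρ K) {B : Set Y} (hB : MeasurableSet B) (hf : m₀ B ≠ ∞) :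
    ∀ᵐ x ∂μ, K (indc m₀ B hB) x = (TT K B).indicator (fun _ => (1 : ℝ)) x := by
  filter_upwards [h.indc_01 hB hf] with x hx
  rw [TT_eq hB]
  rcases hx with hx | hx
  · rw [indicator_of_notMem, hx]
    intro h1
    rw [mem_ofPred_eq, hx] at h1
    exact zero_ne_one h1
  · rw [indicator_of_mem, hx]
    exact hx

/-- the second marginal -/
noncomputable def nu (ρ : Y →ₘ[m₀] ℝ) : Measure Y := m₀.withDensity fun y => ENNReal.ofReal (ρ y)

theorem rho_int (h : IsMultOp m₀ μ ρ K) {B : Set Y} (hf : m₀ B ≠ ∞) :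
    IntegrableOn ρ B m₀ := by
  have : IsFiniteMeasure (m₀.restrict B) := ⟨by
    rw [Measure.restrict_apply_univ]; exact lt_top_iff_ne_top.mpr hf⟩
  exact (h.rho_top.restrict B).integrable le_top

theorem nu_apply (h : IsMultOp m₀ μ ρ K) {B : Set Y} (hB : MeasurableSet B) (hf : m₀ B ≠ ∞) :
    nu ρ B = ENNReal.ofReal (∫ y in B, ρ y ∂m₀) := by
  rw [nu, withDensity_apply _ hB]
  rw [ofReal_integral_eq_lintegral_ofReal (h.rho_int hf)]
  have h0 := h.rho_nonneg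
  rw [← AEEqFun.coeFn_le] at h0
  refine ae_restrict_of_ae ?_
  filter_upwards [h0, AEEqFun.coeFn_zero (α := Y) (μ := m₀) (β := ℝ)] with y h1 h2
  rw [h2] at h1
  exact h1

theorem measure_TT (h : IsMultOp m₀ μ ρ K) {B : Set Y} (hB : MeasurableSet B) (hf : m₀ B ≠ ∞) :
    μ (TT K B) = nu ρ B := by
  obtain ⟨h1, h2⟩ := h.int1 (indc m₀ B hB) (indc_mem m₀ hB hf 2) (indc_mem m₀ hB hf ∞)
    (indc_mem m₀ hB hf 1) (indc_nonneg m₀ hB)
  have hTf : μ (TT K B) ≠ ∞ := by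
    have h3 := (memLp_one_iff_integrable.mp h1).measure_norm_ge_lt_top (zero_lt_one)
    refine ((measure_mono ?_).trans_lt h3).ne
    intro x hx
    rw [TT_eq hB, mem_ofPred_eq] at hx
    rw [mem_ofPred_eq, hx]
    simp
  have h4 : ∫ x, K (indc m₀ B hB) x ∂μ = μ.real (TT K B) := by
    rw [integral_congr_ae (h.K_indc hB hf), integral_indicator_const _ (TT_meas hB)]
    simp
  have h5 : ∫ y, ρ y * indc m₀ B hB y ∂m₀ = ∫ y in B, ρ y ∂m₀ := by
    rw [← integral_indicator hB]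
    refine integral_congr_ae ?_
    filter_upwards [indc_ae m₀ B hB] with y hy
    rw [hy]
    by_cases hyB : y ∈ B <;> simp [hyB]
  rw [h.nu_apply hB hf, ← h5, ← h2, h4, Measure.real, ENNReal.ofReal_toReal hTf]

theorem indc_union (m₀ : Measure Y) {B C : Set Y} (hB : MeasurableSet B) (hC : MeasurableSet C)
    (hBC : Disjoint B C) : indc m₀ (B ∪ C) (hB.union hC) = indc m₀ B hB + indc m₀ C hC := by
  apply AEEqFun.ext
  filter_upwards [AEEqFun.coeFn_add (indc m₀ B hB) (indc m₀ C hC), indc_ae m₀ B hB,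
    indc_ae m₀ C hC, indc_ae m₀ (B ∪ C) (hB.union hC)] with y h1 h2 h3 h4
  rw [h1, Pi.add_apply, h2, h3, h4, indicator_union_of_disjoint hBC]

theorem indc_mono (m₀ : Measure Y) {B C : Set Y} (hB : MeasurableSet B) (hC : MeasurableSet C)
    (hBC : B ⊆ C) : indc m₀ B hB ≤ indc m₀ C hC := by
  rw [← AEEqFun.coeFn_le]
  filter_upwards [indc_ae m₀ B hB, indc_ae m₀ C hC] with y h1 h2
  rw [h1, h2]
  exact indicator_le_indicator_of_subset hBC (fun _ => zero_le_one) y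

theorem mem_mul_indc {a : Y →ₘ[m₀] ℝ} {p : ℝ≥0∞} (ha : MemLp a p m₀) {B : Set Y}
    (hB : MeasurableSet B) : MemLp (a * indc m₀ B hB : Y →ₘ[m₀] ℝ) p m₀ := by
  refine ha.of_le (AEEqFun.aestronglyMeasurable _) ?_
  filter_upwards [AEEqFun.coeFn_mul a (indc m₀ B hB), indc_ae m₀ B hB] with y h1 h2
  rw [h1, Pi.mul_apply, h2]
  by_cases hy : y ∈ B <;> simp [hy]

theorem mem_sub' {a b : Y →ₘ[m₀] ℝ} {p : ℝ≥0∞} (ha : MemLp a p m₀) (hb : MemLp b p m₀) :
    MemLp (a - b : Y →ₘ[m₀] ℝ) p m₀ := (ha.sub hb).ae_eq (AEEqFun.coeFn_sub a b).symm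

theorem mem_add' {a b : Y →ₘ[m₀] ℝ} {p : ℝ≥0∞} (ha : MemLp a p m₀) (hb : MemLp b p m₀) :
    MemLp (a + b : Y →ₘ[m₀] ℝ) p m₀ := (ha.add hb).ae_eq (AEEqFun.coeFn_add a b).symm

theorem mem_smul' (c : ℝ) {a : Y →ₘ[m₀] ℝ} {p : ℝ≥0∞} (ha : MemLp a p m₀) :
    MemLp (c • a : Y →ₘ[m₀] ℝ) p m₀ := (ha.const_smul c).ae_eq (AEEqFun.coeFn_smul c a).symm

theorem ge_meas (a : Y →ₘ[m₀] ℝ) (c : ℝ) : MeasurableSet {y | c ≤ a y} :=
  measurableSet_le measurable_const (AEEqFun.measurable a)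

theorem ge_fin {a : Y →ₘ[m₀] ℝ} (ha : MemLp a 2 m₀) {c : ℝ} (hc : 0 < c) :
    m₀ {y | c ≤ a y} ≠ ∞ := by
  have h1 := ha.integrable_sq.measure_norm_ge_lt_top (ε := c ^ 2) (by positivity)
  refine ((measure_mono ?_).trans_lt h1).ne
  intro y hy
  rw [mem_ofPred_eq] at hy ⊢
  rw [Real.norm_eq_abs, abs_of_nonneg (sq_nonneg _)]
  exact pow_le_pow_left₀ hc.le hy 2

/-- `K a ≤ K 1_{a ≥ c} + c` for `0 ≤ a ≤ 1` -/
theorem K_le_indc (h : IsMultOp m₀ μ ρ K) {a : Y →ₘ[m₀] ℝ} (ha : MemLp a 2 m₀)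
    (ha' : MemLp a ∞ m₀) (h1 : ∀ᵐ y ∂m₀, a y ≤ 1) {c : ℝ} (hc : 0 < c) :
    ∀ᵐ x ∂μ, K a x ≤ K (indc m₀ {y | c ≤ a y} (ge_meas a c)) x + c := by
  set B := {y | c ≤ a y} with hB
  have hBm : MeasurableSet B := ge_meas a c
  have hBf : m₀ B ≠ ∞ := ge_fin ha hc
  have e1 : a = a * indc m₀ B hBm + (a - a * indc m₀ B hBm) := by abel
  have e2 : K a = K (a * indc m₀ B hBm) + K (a - a * indc m₀ B hBm) := by
    conv_lhs => rw [e1]
    exact h.add _ _ (mem_mul_indc ha hBm) (mem_mul_indc ha' hBm)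
      (mem_sub' ha (mem_mul_indc ha hBm)) (mem_sub' ha' (mem_mul_indc ha' hBm))
  have e3 : K (a * indc m₀ B hBm) ≤ K (indc m₀ B hBm) := by
    refine h.mono (mem_mul_indc ha hBm) (mem_mul_indc ha' hBm) (indc_mem m₀ hBm hBf 2)
      (indc_mem m₀ hBm hBf ∞) ?_
    rw [← AEEqFun.coeFn_le]
    filter_upwards [AEEqFun.coeFn_mul a (indc m₀ B hBm), indc_ae m₀ B hBm, h1] with y k1 k2 k3
    rw [k1, Pi.mul_apply, k2]
    by_cases hy : y ∈ B
    · simpa [hy] using k3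
    · simp [hy]
  have e4 : ∀ᵐ x ∂μ, K (a - a * indc m₀ B hBm) x ≤ c := by
    refine h.le _ c (mem_sub' ha (mem_mul_indc ha hBm)) (mem_sub' ha' (mem_mul_indc ha' hBm))
      hc.le ?_
    filter_upwards [AEEqFun.coeFn_sub a (a * indc m₀ B hBm), AEEqFun.coeFn_mul a (indc m₀ B hBm),
      indc_ae m₀ B hBm] with y k1 k2 k3
    rw [k1, Pi.sub_apply, k2, Pi.mul_apply, k3]
    by_cases hy : y ∈ B
    · simp [hy, hc.le]
    · have : ¬ c ≤ a y := hy
      simp only [hy, not_false_eq_true, indicator_of_notMem, mul_zero, sub_zero]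
      exact (not_le.mp this).le
  rw [← AEEqFun.coeFn_le] at e3
  filter_upwards [e3, e4, AEEqFun.coeFn_add (K (a * indc m₀ B hBm)) (K (a - a * indc m₀ B hBm))]
    with x k1 k2 k3
  rw [e2, k3, Pi.add_apply]
  exact add_le_add k1 k2

theorem isSetHom [SigmaFinite μ] (h : IsMultOp m₀ μ ρ K) : IsSetHom m₀ μ (nu ρ) (TT K) where
  fin B hB hBf := by rw [h.nu_apply hB hBf]; exact ENNReal.ofReal_ne_top
  meas B hB _ := TT_meas hB
  measure_eq B hB hBf := h.measure_TT hB hBf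
  disj B C hB hC hBf hCf hBC := by
    have hU : m₀ (B ∪ C) ≠ ∞ := measure_union_ne_top hBf hCf
    have e : K (indc m₀ (B ∪ C) (hB.union hC)) = K (indc m₀ B hB) + K (indc m₀ C hC) := by
      rw [indc_union m₀ hB hC hBC]
      exact h.add _ _ (indc_mem m₀ hB hBf 2) (indc_mem m₀ hB hBf ∞) (indc_mem m₀ hC hCf 2)
        (indc_mem m₀ hC hCf ∞)
    rw [measure_eq_zero_iff_ae_notMem]
    filter_upwards [h.indc_01 (hB.union hC) hU,
      AEEqFun.coeFn_add (K (indc m₀ B hB)) (K (indc m₀ C hC))] with x h1 h2 h3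
    have h4 : K (indc m₀ B hB) x = 1 := by
      have := h3.1; rwa [TT_eq hB, mem_ofPred_eq] at this
    have h5 : K (indc m₀ C hC) x = 1 := by
      have := h3.2; rwa [TT_eq hC, mem_ofPred_eq] at this
    rw [e, h2, Pi.add_apply, h4, h5] at h1
    norm_num at h1
  mono B C hB hC hCf hBC := by
    have hBf : m₀ B ≠ ∞ := IsForm.fin_of_subset hBC hCf
    have e := h.mono (indc_mem m₀ hB hBf 2) (indc_mem m₀ hB hBf ∞) (indc_mem m₀ hC hCf 2)
      (indc_mem m₀ hC hCf ∞) (indc_mono m₀ hB hC hBC)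
    rw [← AEEqFun.coeFn_le] at e
    rw [measure_eq_zero_iff_ae_notMem]
    filter_upwards [e, h.indc_01 hC hCf] with x h1 h2 h3
    have h4 : K (indc m₀ B hB) x = 1 := by
      have := h3.1; rwa [TT_eq hB, mem_ofPred_eq] at this
    have h5 : ¬ K (indc m₀ C hC) x = 1 := by
      have := h3.2; rwa [TT_eq hC, mem_ofPred_eq] at this
    rcases h2 with h2 | h2
    · rw [h4, h2] at h1; norm_num at h1
    · exact h5 h2
  exhaust := by
    -- approximate the constant `1` on the spanning sets of `μ`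
    have hk : ∀ k : ℕ, ∀ j : ℕ, ∃ a : Y →ₘ[m₀] ℝ, MemLp a 2 m₀ ∧ MemLp a ∞ m₀ ∧ 0 ≤ a ∧
        (∀ᵐ y ∂m₀, a y ≤ 1) ∧ ∫ x, indc μ (spanningSets μ k) (measurableSet_spanningSets μ k) x ∂μ
          - 1 / ((j : ℝ) + 1) ≤
        ∫ x, indc μ (spanningSets μ k) (measurableSet_spanningSets μ k) x * K a x ∂μ := by
      intro k j
      have hf := (measure_spanningSets_lt_top μ k).ne
      have hm := measurableSet_spanningSets μ k
      exact h.full _ (indc_mem μ hm hf 2) (indc_mem μ hm hf ∞) (indc_mem μ hm hf 1)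
        (indc_nonneg μ hm) _ (by positivity)
    choose a ha2 hat ha0 ha1 hai using hk
    let D : Set X := (⋃ n : ℕ, TT K
      {y | 1 / (((Nat.unpair (Nat.unpair n).2).2 : ℝ) + 1) ≤
        a (Nat.unpair n).1 (Nat.unpair (Nat.unpair n).2).1 y})ᶜ
    refine ⟨fun n => {y | 1 / (((Nat.unpair (Nat.unpair n).2).2 : ℝ) + 1) ≤
        a (Nat.unpair n).1 (Nat.unpair (Nat.unpair n).2).1 y}, fun n =>
      ⟨ge_meas _ _, ge_fin (ha2 _ _) (by positivity)⟩, ?_⟩
    change μ D = 0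
    have hDm : MeasurableSet D := (MeasurableSet.iUnion fun n => TT_meas (ge_meas _ _)).compl
    have hsub : ∀ k j l : ℕ, D ⊆ (TT K {y | 1 / ((l : ℝ) + 1) ≤ a k j y})ᶜ := by
      intro k j l x hx hx'
      apply hx
      refine mem_iUnion.mpr ⟨Nat.pair k (Nat.pair j l), ?_⟩
      simpa using hx'
    have hneg : ∀ k j, ∀ᵐ x ∂μ, x ∈ D → K (a k j) x ≤ 0 := by
      intro k j
      have h1 : ∀ᵐ x ∂μ, ∀ l : ℕ, x ∈ D → K (a k j) x ≤ 1 / ((l : ℝ) + 1) := by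
        refine ae_all_iff.mpr fun l => ?_
        filter_upwards [h.K_le_indc (ha2 k j) (hat k j) (ha1 k j)
          (c := 1 / ((l : ℝ) + 1)) (by positivity),
          h.K_indc (ge_meas (a k j) (1 / ((l : ℝ) + 1))) (ge_fin (ha2 k j) (by positivity))]
          with x h1 h2 hx
        have h3 := hsub k j l hx
        rw [h2, indicator_of_notMem h3, zero_add] at h1
        exact h1
      filter_upwards [h1] with x hx hxD
      refine le_of_forall_pos_le_add fun ε hε => ?_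
      obtain ⟨l, hl⟩ := exists_nat_one_div_lt hε
      linarith [hx l hxD]
    have hD : ∀ k, μ (spanningSets μ k ∩ D) = 0 := by
      intro k
      have hf := (measure_spanningSets_lt_top μ k).ne
      have hm := measurableSet_spanningSets μ k
      have hfin : μ (spanningSets μ k ∩ D) ≠ ∞ := IsForm.fin_of_subset inter_subset_left hf
      rw [← measureReal_eq_zero_iff hfin]
      refine le_antisymm ?_ measureReal_nonneg
      refine le_of_forall_pos_le_add fun ε hε => ?_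
      obtain ⟨j, hj⟩ := exists_nat_one_div_lt hε
      have h1 := hai k j
      have h2 : ∫ x, indc μ (spanningSets μ k) hm x ∂μ = μ.real (spanningSets μ k) := by
        rw [integral_congr_ae (indc_ae μ _ hm), integral_indicator_const _ hm]
        simp
      have h3 : ∫ x, indc μ (spanningSets μ k) hm x * K (a k j) x ∂μ ≤
          ∫ x, (spanningSets μ k \ D).indicator (fun _ => (1 : ℝ)) x ∂μ := by
        refine integral_mono_of_nonneg ?_ ?_ ?_
        · have h4 := h.nonneg _ (ha2 k j) (hat k j) (ha0 k j)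
          rw [← AEEqFun.coeFn_le] at h4
          filter_upwards [indc_ae μ _ hm, h4, AEEqFun.coeFn_zero (α := X) (μ := μ) (β := ℝ)]
            with x h5 h6 h7
          rw [h7] at h6
          rw [h5]
          exact mul_nonneg (indicator_nonneg (fun _ _ => zero_le_one) x) h6
        · rw [integrable_indicator_iff (hm.diff hDm)]
          exact integrableOn_const (IsForm.fin_of_subset sdiff_subset hf)
        · filter_upwards [indc_ae μ _ hm, hneg k j, h.le _ 1 (ha2 k j) (hat k j) zero_le_one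
            (ha1 k j)] with x h5 h6 h7
          rw [h5]
          by_cases hxS : x ∈ spanningSets μ k
          · by_cases hxD : x ∈ D
            · have h8 := h6 hxD
              simp only [hxS, indicator_of_mem, one_mul]
              refine h8.trans ?_
              exact indicator_nonneg (fun _ _ => zero_le_one) x
            · have h9 : x ∈ spanningSets μ k \ D := ⟨hxS, hxD⟩
              simp only [hxS, indicator_of_mem, one_mul, h9]
              exact h7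
          · simp only [hxS, not_false_eq_true, indicator_of_notMem, zero_mul]
            exact indicator_nonneg (fun _ _ => zero_le_one) x
      have h4 : ∫ x, (spanningSets μ k \ D).indicator (fun _ => (1 : ℝ)) x ∂μ =
          μ.real (spanningSets μ k \ D) := by
        rw [integral_indicator_const _ (hm.diff hDm)]; simp
      have h5 := IsForm.real_split (μ := μ) (A := spanningSets μ k) hDm hf
      rw [h2] at h1
      linarith
    have h2 : D ⊆ ⋃ k, (spanningSets μ k ∩ D) := by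
      intro x hx
      have : x ∈ (⋃ k, spanningSets μ k) := by rw [iUnion_spanningSets]; trivial
      obtain ⟨k, hk⟩ := mem_iUnion.mp this
      exact mem_iUnion.mpr ⟨k, hk, hx⟩
    exact measure_mono_null h2 (measure_iUnion_null_iff.mpr hD)

/-- lower approximation of a number by multiples of `1/n` -/
theorem floor_sum {t : ℝ} {n N : ℕ} (hn : 0 < n) (ht : 0 ≤ t) (htN : (n : ℝ) * t ≤ N) :
    t - 1 / (n : ℝ) ≤ ∑ k ∈ Finset.range N, (1 / (n : ℝ)) *
      {s : ℝ | ((k : ℝ) + 1) / n ≤ s}.indicator (fun _ => (1 : ℝ)) t ∧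
    ∑ k ∈ Finset.range N, (1 / (n : ℝ)) *
      {s : ℝ | ((k : ℝ) + 1) / n ≤ s}.indicator (fun _ => (1 : ℝ)) t ≤ t := by
  have hn' : (0 : ℝ) < n := Nat.cast_pos.mpr hn
  have hnt : 0 ≤ (n : ℝ) * t := mul_nonneg hn'.le ht
  have e : ∑ k ∈ Finset.range N, (1 / (n : ℝ)) *
      {s : ℝ | ((k : ℝ) + 1) / n ≤ s}.indicator (fun _ => (1 : ℝ)) t = (⌊(n : ℝ) * t⌋₊ : ℝ) / n := by
    rw [← Finset.mul_sum]
    have h1 : ∑ k ∈ Finset.range N, {s : ℝ | ((k : ℝ) + 1) / n ≤ s}.indicator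
        (fun _ => (1 : ℝ)) t = (⌊(n : ℝ) * t⌋₊ : ℝ) := by
      have h2 : ∀ k : ℕ, {s : ℝ | ((k : ℝ) + 1) / n ≤ s}.indicator (fun _ => (1 : ℝ)) t =
          if k ∈ Finset.range ⌊(n : ℝ) * t⌋₊ then 1 else 0 := by
        intro k
        have h3 : t ∈ {s : ℝ | ((k : ℝ) + 1) / n ≤ s} ↔ k ∈ Finset.range ⌊(n : ℝ) * t⌋₊ := by
          rw [mem_ofPred_eq, div_le_iff₀ hn', Finset.mem_range, ← Nat.add_one_le_iff,
            Nat.le_floor_iff hnt, mul_comm t]
          push_cast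
          rfl
        by_cases hk : k ∈ Finset.range ⌊(n : ℝ) * t⌋₊
        · rw [indicator_of_mem (h3.mpr hk), if_pos hk]
        · rw [indicator_of_notMem (fun h => hk (h3.mp h)), if_neg hk]
      rw [Finset.sum_congr rfl fun k _ => h2 k, ← Finset.sum_filter]
      have h4 : (Finset.range N).filter (fun k => k ∈ Finset.range ⌊(n : ℝ) * t⌋₊) =
          Finset.range ⌊(n : ℝ) * t⌋₊ := by
        ext k
        simp only [Finset.mem_filter, Finset.mem_range, and_iff_right_iff_imp]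
        intro hk
        exact hk.trans_le (Nat.floor_le_of_le htN)
      rw [h4]
      simp
    rw [h1]; ring
  rw [e]
  constructor
  · have h5 := Nat.lt_floor_add_one ((n : ℝ) * t)
    rw [sub_le_iff_le_add, ← add_div, le_div_iff₀ hn', mul_comm]
    exact h5.le
  · rw [div_le_iff₀ hn', mul_comm t]
    exact Nat.floor_le hnt

theorem K_sum (h : IsMultOp m₀ μ ρ K) (c : ℝ) (B : ℕ → Set Y) (hB : ∀ k, MeasurableSet (B k))
    (hf : ∀ k, m₀ (B k) ≠ ∞) (N : ℕ) :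
    ∃ s : Y →ₘ[m₀] ℝ, MemLp s 2 m₀ ∧ MemLp s ∞ m₀ ∧
      (∀ᵐ y ∂m₀, s y = ∑ k ∈ Finset.range N, c * (B k).indicator (fun _ => (1 : ℝ)) y) ∧
      ∀ᵐ x ∂μ, K s x = ∑ k ∈ Finset.range N, c * K (indc m₀ (B k) (hB k)) x := by
  induction N with
  | zero =>
    refine ⟨0, ?_, ?_, ?_, ?_⟩
    · exact (MemLp.zero (ε := ℝ)).ae_eq (AEEqFun.coeFn_zero (α := Y) (μ := m₀) (β := ℝ)).symm
    · exact (MemLp.zero (ε := ℝ)).ae_eq (AEEqFun.coeFn_zero (α := Y) (μ := m₀) (β := ℝ)).symm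
    · filter_upwards [AEEqFun.coeFn_zero (α := Y) (μ := m₀) (β := ℝ)] with y hy
      rw [hy]; simp
    · have h0 : K 0 = 0 := by
        have h1 := h.smul 0 0 ((MemLp.zero (ε := ℝ)).ae_eq
          (AEEqFun.coeFn_zero (α := Y) (μ := m₀) (β := ℝ)).symm) ((MemLp.zero (ε := ℝ)).ae_eq
          (AEEqFun.coeFn_zero (α := Y) (μ := m₀) (β := ℝ)).symm)
        simpa using h1
      rw [h0]
      filter_upwards [AEEqFun.coeFn_zero (α := X) (μ := μ) (β := ℝ)] with y hy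
      rw [hy]; simp
  | succ N ih =>
    obtain ⟨s, h2, ht, hs, hK⟩ := ih
    have e2 := indc_mem m₀ (hB N) (hf N) 2
    have et := indc_mem m₀ (hB N) (hf N) ∞
    refine ⟨s + c • indc m₀ (B N) (hB N), mem_add' h2 (mem_smul' c e2),
      mem_add' ht (mem_smul' c et), ?_, ?_⟩
    · filter_upwards [hs, AEEqFun.coeFn_add s (c • indc m₀ (B N) (hB N)),
        AEEqFun.coeFn_smul c (indc m₀ (B N) (hB N)), indc_ae m₀ (B N) (hB N)] with y k1 k2 k3 k4
      rw [k2, Pi.add_apply, k3, Pi.smul_apply, k4, k1, Finset.sum_range_succ, smul_eq_mul]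
    · rw [h.add _ _ h2 ht (mem_smul' c e2) (mem_smul' c et), h.smul c _ e2 et]
      filter_upwards [hK, AEEqFun.coeFn_add (K s) (c • K (indc m₀ (B N) (hB N))),
        AEEqFun.coeFn_smul c (K (indc m₀ (B N) (hB N)))] with x k1 k2 k3
      rw [k2, Pi.add_apply, k3, Pi.smul_apply, k1, Finset.sum_range_succ, smul_eq_mul]

/-- **Multiplicative sub-Markov operators are compositions.** -/
theorem exists_map [StandardBorelSpace Y] [Nonempty Y] [SigmaFinite μ] [SigmaFinite m₀]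
    (h : IsMultOp m₀ μ ρ K) :
    ∃ f : X → Y, Measurable f ∧ Measure.map f μ = nu ρ ∧
      ∀ a : Y →ₘ[m₀] ℝ, MemLp a 2 m₀ → MemLp a ∞ m₀ → ∀ᵐ x ∂μ, K a x = a (f x) := by
  obtain ⟨f, hfm, hmap, hf⟩ := h.isSetHom.exists_map
  have hac : ∀ {p : Y → Prop}, (∀ᵐ y ∂m₀, p y) → ∀ᵐ x ∂μ, p (f x) := by
    intro p hp
    refine ae_of_ae_map hfm.aemeasurable ?_
    rw [hmap]
    exact (withDensity_absolutelyContinuous _ _).ae_le hp
  have hI : ∀ (B : Set Y) (hB : MeasurableSet B), m₀ B ≠ ∞ →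
      ∀ᵐ x ∂μ, K (indc m₀ B hB) x = B.indicator (fun _ => (1 : ℝ)) (f x) := by
    intro B hB hBf
    filter_upwards [h.K_indc hB hBf, hf B hB hBf] with x h1 h2
    rw [h1]
    have h3 : f x ∈ B ↔ x ∈ TT K B := iff_of_eq h2
    by_cases hx : f x ∈ B
    · rw [indicator_of_mem hx, indicator_of_mem (h3.mp hx)]
    · rw [indicator_of_notMem hx, indicator_of_notMem (fun h => hx (h3.mpr h))]
  -- lower bound for nonnegative functions
  have hlow : ∀ b : Y →ₘ[m₀] ℝ, MemLp b 2 m₀ → MemLp b ∞ m₀ → 0 ≤ b →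
      ∀ᵐ x ∂μ, b (f x) ≤ K b x := by
    intro b hb2 hbt hb0
    obtain ⟨R, hR⟩ : ∃ R : ℝ, ∀ᵐ y ∂m₀, |b y| ≤ R := by
      refine ⟨(eLpNorm b ∞ m₀).toReal, ?_⟩
      have := ae_le_eLpNormEssSup (f := (b : Y → ℝ)) (μ := m₀)
      filter_upwards [this] with y hy
      rw [eLpNorm_exponent_top, ← Real.norm_eq_abs, ← toReal_enorm]
      refine ENNReal.toReal_mono ?_ hy
      have := hbt.2
      rw [eLpNorm_exponent_top] at this
      exact this.ne
    have hb0' : ∀ᵐ y ∂m₀, 0 ≤ b y := by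
      rw [← AEEqFun.coeFn_le] at hb0
      filter_upwards [hb0, AEEqFun.coeFn_zero (α := Y) (μ := m₀) (β := ℝ)] with y h1 h2
      rw [h2] at h1; exact h1
    have key : ∀ n : ℕ, ∀ᵐ x ∂μ, b (f x) - 1 / ((n : ℝ) + 1) ≤ K b x := by
      intro n
      obtain ⟨N, hN⟩ := exists_nat_ge (((n + 1 : ℕ) : ℝ) * R)
      have hBf : ∀ k : ℕ, m₀ {y | ((k : ℝ) + 1) / ((n + 1 : ℕ) : ℝ) ≤ b y} ≠ ∞ := fun k =>
        ge_fin hb2 (by positivity)
      obtain ⟨s, hs2, hst, hs, hKs⟩ := h.K_sum (1 / ((n + 1 : ℕ) : ℝ))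
        (fun k => {y | ((k : ℝ) + 1) / ((n + 1 : ℕ) : ℝ) ≤ b y}) (fun k => ge_meas b _) hBf N
      have hsb : s ≤ b := by
        rw [← AEEqFun.coeFn_le]
        filter_upwards [hs, hb0', hR] with y k1 k2 k3
        rw [k1]
        exact (floor_sum (n := n + 1) (N := N) (Nat.succ_pos n) k2
          ((mul_le_mul_of_nonneg_left ((le_abs_self _).trans k3) (by positivity)).trans hN)).2
      have h1 := h.mono hs2 hst hb2 hbt hsb
      rw [← AEEqFun.coeFn_le] at h1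
      have h2 : ∀ᵐ x ∂μ, ∀ k : ℕ, K (indc m₀ {y | ((k : ℝ) + 1) / ((n + 1 : ℕ) : ℝ) ≤ b y}
          (ge_meas b _)) x = {y | ((k : ℝ) + 1) / ((n + 1 : ℕ) : ℝ) ≤ b y}.indicator
            (fun _ => (1 : ℝ)) (f x) := ae_all_iff.mpr fun k => hI _ _ (hBf k)
      filter_upwards [h1, hKs, h2, hac hb0', hac hR] with x k1 k2 k3 k4 k5
      refine le_trans ?_ k1
      rw [k2, Finset.sum_congr rfl fun k _ => by rw [k3 k]]
      have k6 := (floor_sum (t := b (f x)) (n := n + 1) (N := N) (Nat.succ_pos n) k4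
          ((mul_le_mul_of_nonneg_left ((le_abs_self _).trans k5) (by positivity)).trans hN)).1
      push_cast at k6 ⊢
      exact k6
    filter_upwards [ae_all_iff.mpr key] with x hx
    refine le_of_forall_pos_le_add fun ε hε => ?_
    obtain ⟨n, hn⟩ := exists_nat_one_div_lt hε
    linarith [hx n]
  have hsub : ∀ a b : Y →ₘ[m₀] ℝ, MemLp a 2 m₀ → MemLp a ∞ m₀ → MemLp b 2 m₀ → MemLp b ∞ m₀ →
      K (a - b) = K a - K b := by
    intro a b ha ha' hb hb'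
    have e : a - b = a + (-1 : ℝ) • b := by rw [neg_one_smul, sub_eq_add_neg]
    rw [e, h.add _ _ ha ha' (mem_smul' _ hb) (mem_smul' _ hb'), h.smul _ _ hb hb',
      neg_one_smul, sub_eq_add_neg]
  have hpos : ∀ b : Y →ₘ[m₀] ℝ, MemLp b 2 m₀ → MemLp b ∞ m₀ → 0 ≤ b →
      ∀ᵐ x ∂μ, K b x = b (f x) := by
    intro b hb2 hbt hb0
    obtain ⟨R, hR0, hR⟩ : ∃ R : ℝ, 0 ≤ R ∧ ∀ᵐ y ∂m₀, |b y| ≤ R := by
      refine ⟨(eLpNorm b ∞ m₀).toReal, ENNReal.toReal_nonneg, ?_⟩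
      have := ae_le_eLpNormEssSup (f := (b : Y → ℝ)) (μ := m₀)
      filter_upwards [this] with y hy
      rw [eLpNorm_exponent_top, ← Real.norm_eq_abs, ← toReal_enorm]
      refine ENNReal.toReal_mono ?_ hy
      have := hbt.2
      rw [eLpNorm_exponent_top] at this
      exact this.ne
    have hb0' : ∀ᵐ y ∂m₀, 0 ≤ b y := by
      rw [← AEEqFun.coeFn_le] at hb0
      filter_upwards [hb0, AEEqFun.coeFn_zero (α := Y) (μ := m₀) (β := ℝ)] with y h1 h2
      rw [h2] at h1; exact h1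
    have key : ∀ n : ℕ, ∀ᵐ x ∂μ, K b x ≤ b (f x) + 1 / ((n : ℝ) + 1) := by
      intro n
      have hc : (0 : ℝ) < 1 / ((n : ℝ) + 1) := by positivity
      set B := {y | 1 / ((n : ℝ) + 1) ≤ b y} with hB
      have hBm : MeasurableSet B := ge_meas b _
      have hBf : m₀ B ≠ ∞ := ge_fin hb2 hc
      have i2 := indc_mem m₀ hBm hBf 2
      have it := indc_mem m₀ hBm hBf ∞
      have p2 := mem_mul_indc hb2 hBm
      have pt := mem_mul_indc hbt hBm
      -- the part of `b` on `B`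
      have hg : 0 ≤ R • indc m₀ B hBm - b * indc m₀ B hBm := by
        rw [← AEEqFun.coeFn_le]
        filter_upwards [AEEqFun.coeFn_zero (α := Y) (μ := m₀) (β := ℝ),
          AEEqFun.coeFn_sub (R • indc m₀ B hBm) (b * indc m₀ B hBm),
          AEEqFun.coeFn_smul R (indc m₀ B hBm), AEEqFun.coeFn_mul b (indc m₀ B hBm),
          indc_ae m₀ B hBm, hR] with y k1 k2 k3 k4 k5 k6
        rw [k1, k2, Pi.sub_apply, k3, Pi.smul_apply, k4, Pi.mul_apply, k5, smul_eq_mul]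
        by_cases hy : y ∈ B
        · simp only [hy, indicator_of_mem, mul_one, Pi.zero_apply, sub_nonneg]
          exact (le_abs_self _).trans k6
        · simp [hy]
      have h1 := hlow _ (mem_sub' (mem_smul' R i2) p2) (mem_sub' (mem_smul' R it) pt) hg
      rw [hsub _ _ (mem_smul' R i2) (mem_smul' R it) p2 pt, h.smul R _ i2 it] at h1
      have h2 : ∀ᵐ x ∂μ, K (b - b * indc m₀ B hBm) x ≤ 1 / ((n : ℝ) + 1) := by
        refine h.le _ _ (mem_sub' hb2 p2) (mem_sub' hbt pt) hc.le ?_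
        filter_upwards [AEEqFun.coeFn_sub b (b * indc m₀ B hBm),
          AEEqFun.coeFn_mul b (indc m₀ B hBm), indc_ae m₀ B hBm] with y k1 k2 k3
        rw [k1, Pi.sub_apply, k2, Pi.mul_apply, k3]
        by_cases hy : y ∈ B
        · simp only [hy, indicator_of_mem, mul_one, sub_self]; exact hc.le
        · have : ¬ 1 / ((n : ℝ) + 1) ≤ b y := hy
          simp only [hy, not_false_eq_true, indicator_of_notMem, mul_zero, sub_zero]
          exact (not_le.mp this).le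
      rw [hsub _ _ hb2 hbt p2 pt] at h2
      filter_upwards [h1, h2, hI B hBm hBf,
        AEEqFun.coeFn_sub (R • K (indc m₀ B hBm)) (K (b * indc m₀ B hBm)),
        AEEqFun.coeFn_smul R (K (indc m₀ B hBm)),
        AEEqFun.coeFn_sub (K b) (K (b * indc m₀ B hBm)),
        hac (AEEqFun.coeFn_sub (R • indc m₀ B hBm) (b * indc m₀ B hBm)),
        hac (AEEqFun.coeFn_smul R (indc m₀ B hBm)), hac (AEEqFun.coeFn_mul b (indc m₀ B hBm)),
        hac (indc_ae m₀ B hBm), hac hb0'] with x k1 k2 k3 k4 k5 k6 k7 k8 k9 k10 k11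
      rw [k4, Pi.sub_apply, k5, Pi.smul_apply, k3, k7, Pi.sub_apply, k8, Pi.smul_apply, k9,
        Pi.mul_apply, k10, smul_eq_mul] at k1
      rw [k6, Pi.sub_apply] at k2
      have k12 : b (f x) * B.indicator (fun _ => (1 : ℝ)) (f x) ≤ b (f x) := by
        by_cases hy : f x ∈ B
        · simp [hy]
        · simpa [hy] using k11
      linarith
    filter_upwards [ae_all_iff.mpr key, hlow b hb2 hbt hb0] with x hx hx'
    refine le_antisymm (le_of_forall_pos_le_add fun ε hε => ?_) hx'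
    obtain ⟨n, hn⟩ := exists_nat_one_div_lt hε
    linarith [hx n]
  refine ⟨f, hfm, hmap, fun a ha2 hat => ?_⟩
  have hp : ∀ {a : Y →ₘ[m₀] ℝ} {p : ℝ≥0∞}, MemLp a p m₀ → MemLp (a ⊔ 0 : Y →ₘ[m₀] ℝ) p m₀ := by
    intro a p ha
    refine ha.of_le (AEEqFun.aestronglyMeasurable _) ?_
    filter_upwards [AEEqFun.coeFn_sup a 0, AEEqFun.coeFn_zero (α := Y) (μ := m₀) (β := ℝ)]
      with y h1 h2
    rw [h1, h2, Pi.zero_apply, Real.norm_eq_abs, Real.norm_eq_abs]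
    rcases le_total (a y) 0 with h3 | h3
    · rw [sup_eq_right.mpr h3]; simp
    · rw [sup_eq_left.mpr h3]
  have hn : ∀ {p : ℝ≥0∞}, MemLp a p m₀ → MemLp (-a : Y →ₘ[m₀] ℝ) p m₀ := fun ha =>
    ha.neg.ae_eq (AEEqFun.coeFn_neg a).symm
  have e : a = (a ⊔ 0) - (-a ⊔ 0) := by
    apply AEEqFun.ext
    filter_upwards [AEEqFun.coeFn_sub (a ⊔ 0) (-a ⊔ 0), AEEqFun.coeFn_sup a 0,
      AEEqFun.coeFn_sup (-a) 0, AEEqFun.coeFn_neg a,
      AEEqFun.coeFn_zero (α := Y) (μ := m₀) (β := ℝ)] with y k1 k2 k3 k4 k5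
    rw [k1, Pi.sub_apply, k2, k3, k4, k5, Pi.neg_apply, Pi.zero_apply]
    rcases le_total (a y) 0 with h3 | h3
    · rw [sup_eq_right.mpr h3, sup_eq_left.mpr (by linarith)]; ring
    · rw [sup_eq_left.mpr h3, sup_eq_right.mpr (by linarith)]; ring
  have hK : K a = K (a ⊔ 0) - K (-a ⊔ 0) := by
    conv_lhs => rw [e]
    exact hsub _ _ (hp ha2) (hp hat) (hp (hn ha2)) (hp (hn hat))
  filter_upwards [hpos (a ⊔ 0) (hp ha2) (hp hat) le_sup_right,
    hpos (-a ⊔ 0) (hp (hn ha2)) (hp (hn hat)) le_sup_right,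
    AEEqFun.coeFn_sub (K (a ⊔ 0)) (K (-a ⊔ 0)),
    hac (AEEqFun.coeFn_sub (a ⊔ 0) (-a ⊔ 0))] with x k1 k2 k3 k4
  rw [hK, k3, Pi.sub_apply, k1, k2, ← Pi.sub_apply, ← k4, ← e]

end IsMultOp

end Vale.Agent.P233.Mult
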