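import Vale.Agent.P233.Gig.IfC
import Vale.Agent.P233.H689.Op

/-!
# P233, block C3: the maps `Y t`
-/

set_option linter.all false

open MeasureTheory Filter Topology Set
open scoped ENNReal NNReal InnerProductSpace

universe u

namespace Vale.Agent.P233.H689

open Vale.Agent.P233 Vale.Agent.P233.PC Vale.Agent.P233.Mult

section

variable {M : Type u} [MeasurableSpace M] {m : Measure M}

theorem L2i_mul {f g : M →ₘ[m] ℝ} (hf : L2i m f) (hg : L2i m g) : L2i m (f * g) :=
  ⟨mem_mul_top hf.2 hg.1, mem_mul_top hf.2 hg.2⟩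

theorem L2i_mul_top {f g : M →ₘ[m] ℝ} (hf : L2i m f) (hg : MemLp g ∞ m) : L2i m (f * g) :=
  ⟨mem_top_mul hf.1 hg, mem_top_mul hf.2 hg⟩

theorem L2i_sq {f : M →ₘ[m] ℝ} (hf : L2i m f) : L2i m (f ^ 2) := by
  rw [sq]; exact L2i_mul hf hf

theorem L2i_smul (c : ℝ) {f : M →ₘ[m] ℝ} (hf : L2i m f) : L2i m (c • f) :=
  ⟨mem_smul c hf.1, mem_smul c hf.2⟩

theorem L2i_indc {B : Set M} (hB : MeasurableSet B) (hf : m B ≠ ∞) : L2i m (indc m B hB) :=
  ⟨indc_mem m hB hf 2, indc_mem m hB hf ∞⟩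

end

variable {M : Type u} [MetricSpace M] [MeasurableSpace M] [BorelSpace M] {m : Measure M}

theorem sigmaFinite_of_balls (h : ∀ (x : M) (r : ℝ), m (Metric.ball x r) < ∞) (p : M) :
    SigmaFinite m :=
  ⟨⟨{ set := fun n : ℕ => Metric.ball p n
      set_mem := fun _ => trivial
      finite := fun n => h p n
      spanning := by
        rw [eq_univ_iff_forall]
        intro x
        obtain ⟨n, hn⟩ := exists_nat_gt (dist x p)
        exact mem_iUnion.mpr ⟨n, Metric.mem_ball.mpr hn⟩ }⟩⟩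

theorem blk_C3_aux [CompleteSpace M] [SecondCountableTopology M] {K N : ℝ} {p : M} {s₀ C₀ : ℝ}
    (hfin : ∀ (x : M) (r : ℝ), m (Metric.ball x r) < ∞)
    {φ ρ : ℝ → M →ₘ[m] ℝ} {R : ℝ → ℝ → (M →ₘ[m] ℝ) → (M →ₘ[m] ℝ)}
    (hL : Lim m K N p s₀ C₀ φ ρ R) (hM : Mult ρ R) : ∃ Y : ℝ → M → M, Maps ρ R Y := by
  classical
  haveI : SigmaFinite m := sigmaFinite_of_balls hfin p
  haveI : Nonempty M := ⟨p⟩
  have h1 : (1 : ℝ) ∈ Ioc (0 : ℝ) 1 := ⟨one_pos, le_rfl⟩
  have ρtop : ∀ t ∈ Ioc (0 : ℝ) 1, MemLp (ρ t) ∞ m := by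
    intro t ht
    rw [mem_top_iff]
    refine ⟨cK K C₀ * t ^ (-N), ?_⟩
    filter_upwards [hL.ρ_le t ht, nonneg_iff_ae.1 (hL.ρ_nonneg t ht)] with x h2 h3
    rw [abs_of_nonneg h3]; exact h2
  -- multiplicativity of `R 1 t`
  have hsq : ∀ t ∈ Ioc (0 : ℝ) 1, ∀ k, L2i m k → R 1 t (k ^ 2) = R 1 t k ^ 2 := by
    intro t ht k hk
    have := hM 1 h1 t ht k k hk hk
    rw [hL.ρ_one, mul_one] at this
    rw [sq, sq, this]
  have hop : ∀ t ∈ Ioc (0 : ℝ) 1, IsMultOp m m (ρ t) (R 1 t) := by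
    intro t ht
    have hmono : ∀ a b : M →ₘ[m] ℝ, L2i m a → L2i m b → a ≤ b → R 1 t a ≤ R 1 t b := by
      intro a b ha hb hab
      have e1 : b = a + (b - a) := by abel
      have hba : L2i m (b - a) := ⟨mem_sub hb.1 ha.1, mem_sub hb.2 ha.2⟩
      have e2 : R 1 t b = R 1 t a + R 1 t (b - a) := by
        conv_lhs => rw [e1]
        exact hL.R_add 1 h1 t ht _ _ ha hba
      have h2 := hL.R_nonneg 1 h1 t ht _ hba (sub_nonneg.mpr hab)
      rw [e2]
      exact le_add_of_nonneg_right h2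
    refine
      { add := fun a b ha ha' hb hb' => hL.R_add 1 h1 t ht a b ⟨ha, ha'⟩ ⟨hb, hb'⟩
        smul := fun c a ha ha' => hL.R_smul 1 h1 t ht c a ⟨ha, ha'⟩
        nonneg := fun a ha ha' h0 => hL.R_nonneg 1 h1 t ht a ⟨ha, ha'⟩ h0
        le := ?_
        sq := fun a ha ha' => hsq t ht a ⟨ha, ha'⟩
        rho_nonneg := hL.ρ_nonneg t ht
        rho_top := ρtop t ht
        int1 := ?_
        full := ?_ }
    · intro a c ha ha' hc hac
      have hp : ∀ {q : ℝ≥0∞}, MemLp a q m → MemLp (a ⊔ 0 : M →ₘ[m] ℝ) q m := by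
        intro q hq
        refine mem_of_le hq ?_
        filter_upwards [AEEqFun.coeFn_sup a 0, zero_ae (M := M) (m := m)] with y k1 k2
        rw [k1, k2]
        rcases le_total (a y) 0 with h3 | h3
        · rw [sup_eq_right.mpr h3]; simp
        · rw [sup_eq_left.mpr h3]
      have hs : L2i m (a ⊔ 0) := ⟨hp ha, hp ha'⟩
      have h2 := hL.R_le 1 h1 t ht (a ⊔ 0) hs c (by
        filter_upwards [AEEqFun.coeFn_sup a 0, zero_ae (M := M) (m := m), hac] with y k1 k2 k3
        rw [k1, k2, abs_of_nonneg le_sup_right]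
        exact sup_le k3 hc)
      have h3 := hmono a (a ⊔ 0) ⟨ha, ha'⟩ hs le_sup_left
      rw [hL.ρ_one] at h2
      filter_upwards [h2, le_iff_ae.1 h3, one_ae (M := M) (m := m)] with x k1 k2 k3
      rw [k3, mul_one] at k1
      exact k2.trans ((le_abs_self _).trans k1)
    · intro a ha ha' ha1 h0
      obtain ⟨k1, k2⟩ := hL.R_mass 1 h1 t ht a ⟨ha, ha'⟩ ha1
      refine ⟨k1, ?_⟩
      change I (R 1 t a) = _
      rw [k2, I]
      refine integral_congr_ae ?_
      filter_upwards [mul_ae a (ρ t)] with y k3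
      rw [k3, mul_comm]
    · intro k hk hk' hk1 h0 δ hδ
      have hkk : L2i m k := ⟨hk, hk'⟩
      set g := R t 1 k with hg
      obtain ⟨g1, g2⟩ := hL.R_mass t ht 1 h1 k hkk hk1
      rw [hL.ρ_one, mul_one] at g2
      have g0 := hL.R_nonneg t ht 1 h1 k hkk h0
      -- a large set of finite measure
      have hlim : Tendsto (fun n : ℕ => ∫ x in spanningSets m n, g x ∂m) atTop (𝓝 (∫ x, g x ∂m)) := by
        have := tendsto_setIntegral_of_monotone (μ := m) (f := (g : M → ℝ))
          (s := spanningSets m) (fun n => measurableSet_spanningSets m n) (monotone_spanningSets m)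
          (by rw [iUnion_spanningSets]; exact (int_of_mem g1).integrableOn)
        rw [iUnion_spanningSets, setIntegral_univ] at this
        exact this
      obtain ⟨n, hn⟩ := ((tendsto_order.1 hlim).1 (∫ x, g x ∂m - δ) (by linarith)).exists
      have hSm := measurableSet_spanningSets m n
      have hSf := (measure_spanningSets_lt_top m n).ne
      refine ⟨indc m (spanningSets m n) hSm, indc_mem m hSm hSf 2, indc_mem m hSm hSf ∞,
        indc_nonneg m hSm, indc_le_one m hSm, ?_⟩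
      have e1 : ∫ x, k x * R 1 t (indc m (spanningSets m n) hSm) x ∂m
          = I (k * R 1 t (indc m (spanningSets m n) hSm)) := by
        rw [I]
        exact integral_congr_ae ((mul_ae _ _).mono fun x hx => hx.symm)
      rw [e1, hL.R_symm 1 h1 t ht _ _ (L2i_indc hSm hSf) hkk]
      have e2 : I (indc m (spanningSets m n) hSm * R t 1 k) = ∫ x in spanningSets m n, g x ∂m := by
        rw [I, ← integral_indicator hSm]
        refine integral_congr_ae ?_
        filter_upwards [mul_ae (indc m (spanningSets m n) hSm) (R t 1 k),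
          indc_ae m (spanningSets m n) hSm] with y k1 k2
        rw [k1, k2]
        by_cases hy : y ∈ spanningSets m n <;> simp [hy, hg]
      rw [e2]
      have e3 : ∫ x, k x ∂m = ∫ x, g x ∂m := g2.symm
      rw [e3]
      exact hn.le
  have hex : ∀ t : ℝ, ∃ f : M → M, t ∈ Ioc (0 : ℝ) 1 → (Measurable f ∧
      Measure.map f m = IsMultOp.nu (ρ t) ∧
      (∀ a : M →ₘ[m] ℝ, MemLp a 2 m → MemLp a ∞ m → ∀ᵐ x ∂m, R 1 t a x = a (f x)) ∧
      (t = 1 → f = id)) := by
    intro t
    by_cases ht : t ∈ Ioc (0 : ℝ) 1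
    · by_cases ht1 : t = 1
      · refine ⟨id, fun _ => ⟨measurable_id, ?_, ?_, fun _ => rfl⟩⟩
        · rw [Measure.map_id, IsMultOp.nu, ht1, hL.ρ_one]
          rw [withDensity_congr_ae (g := fun _ => (1 : ℝ≥0∞))]
          · exact (withDensity_one (μ := m)).symm
          · filter_upwards [one_ae (M := M) (m := m)] with x hx
            rw [hx]; simp
        · intro a ha ha'
          rw [ht1, hL.R_diag 1 h1 a ⟨ha, ha'⟩, hL.ρ_one, mul_one]
          exact Eventually.of_forall fun x => rfl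
      · obtain ⟨f, k1, k2, k3⟩ := (hop t ht).exists_map
        exact ⟨f, fun _ => ⟨k1, k2, k3, fun h => absurd h ht1⟩⟩
    · exact ⟨id, fun h => absurd h ht⟩
  choose Y hY using hex
  have hmapA : ∀ t ∈ Ioc (0 : ℝ) 1, ∀ {q : M → Prop}, (∀ᵐ x ∂m, q x) → ∀ᵐ x ∂m, q (Y t x) := by
    intro t ht q hq
    refine ae_of_ae_map (hY t ht).1.aemeasurable ?_
    rw [(hY t ht).2.1]
    exact (withDensity_absolutelyContinuous _ _).ae_le hq
  have hrepr : ∀ t ∈ Ioc (0 : ℝ) 1, ∀ k, L2i m k → ∀ᵐ x ∂m, R 1 t k x = k (Y t x) :=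
    fun t ht k hk => (hY t ht).2.2.1 k hk.1 hk.2
  -- change of variables
  have hcv : ∀ t ∈ Ioc (0 : ℝ) 1, ∀ g : M →ₘ[m] ℝ, ∫ x, g (Y t x) ∂m = I (g * ρ t) := by
    intro t ht g
    have e1 : ∫ x, g (Y t x) ∂m = ∫ y, g y ∂(Measure.map (Y t) m) := by
      rw [integral_map (hY t ht).1.aemeasurable]
      exact (g.stronglyMeasurable).aestronglyMeasurable
    rw [e1, (hY t ht).2.1, IsMultOp.nu]
    have e2 := integral_withDensity_eq_integral_toReal_smul₀ (μ := m)
      (f := fun y => ENNReal.ofReal (ρ t y))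
      ((ρ t).measurable.ennreal_ofReal.aemeasurable)
      (Eventually.of_forall fun x => ENNReal.ofReal_lt_top) (g : M → ℝ)
    rw [e2, I]
    refine integral_congr_ae ?_
    filter_upwards [mul_ae g (ρ t), nonneg_iff_ae.1 (hL.ρ_nonneg t ht)] with x k1 k2
    rw [k1, ENNReal.toReal_ofReal k2, smul_eq_mul, mul_comm]
  -- two times and the reference time
  have htwo : ∀ t ∈ Ioc (0 : ℝ) 1, ∀ r ∈ Ioc (0 : ℝ) 1, ∀ b k, L2i m b → L2i m k →
      I (b * R t r k) = I (R 1 r k * R 1 t b) := by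
    intro t ht r hr b k hb hk
    have hKk : L2i m (R 1 r k) := hL.R_mem 1 h1 r hr k hk
    have e0 : I (k ^ 2 * ρ r) = I (R 1 r k ^ 2) := by
      rw [← hsq r hr k hk]
      exact ((hL.R_mass 1 h1 r hr (k ^ 2) (L2i_sq hk) (mem_sq hk.1)).2).symm
    have key : ∀ lam : ℝ, 0 ≤ I (b ^ 2 * ρ t)
        + 2 * lam * (I (b * R t r k) - I (R 1 r k * R 1 t b)) := by
      intro lam
      have h2 := hL.R_gram 1 h1 t ht r hr ((-lam) • R 1 r k) b (lam • k)
        (L2i_smul _ hKk) hb (L2i_smul _ hk)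
      rw [hL.ρ_one, mul_one, hL.R_smul t ht r hr lam k hk, hL.R_smul 1 h1 r hr lam k hk] at h2
      have s1 : I (((-lam) • R 1 r k) ^ 2) = lam ^ 2 * I (R 1 r k ^ 2) := by
        rw [smul_pow, I_smul]; ring
      have s2 : I ((lam • k) ^ 2 * ρ r) = lam ^ 2 * I (R 1 r k ^ 2) := by
        rw [smul_pow, smul_mul_assoc, I_smul, e0]
      have s3 : I ((-lam) • R 1 r k * R 1 t b) = -lam * I (R 1 r k * R 1 t b) := by
        rw [smul_mul_assoc, I_smul]
      have s4 : I (b * lam • R t r k) = lam * I (b * R t r k) := by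
        rw [mul_smul_comm, I_smul]
      have s5 : I ((-lam) • R 1 r k * lam • R 1 r k) = -lam ^ 2 * I (R 1 r k ^ 2) := by
        rw [smul_mul_smul_comm, I_smul, sq (R 1 r k)]; ring
      rw [s1, s2, s3, s4, s5] at h2
      linarith
    by_contra hne
    have hd : I (b * R t r k) - I (R 1 r k * R 1 t b) ≠ 0 := sub_ne_zero.mpr hne
    set d := I (b * R t r k) - I (R 1 r k * R 1 t b) with hdd
    have h3 := key (-(I (b ^ 2 * ρ t) + 1) / (2 * d))
    have h4 : 2 * (-(I (b ^ 2 * ρ t) + 1) / (2 * d)) * d = -(I (b ^ 2 * ρ t) + 1) := by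
      field_simp
    rw [h4] at h3
    linarith
  refine ⟨Y, ⟨fun t ht => (hY t ht).1, fun x => by rw [(hY 1 h1).2.2.2 rfl]; rfl, ?_, hrepr, ?_⟩⟩
  · intro t ht A hA
    rw [← Measure.map_apply (hY t ht).1 hA, (hY t ht).2.1, IsMultOp.nu, withDensity_apply _ hA]
  · intro t ht r hr k hk
    -- it suffices to look at `Y t x` in balls
    have key : ∀ n : ℕ, ∀ᵐ x ∂m, Y t x ∈ Metric.ball p n →
        R t r k (Y t x) = ρ t (Y t x) * k (Y r x) := by
      intro n
      have hSm : MeasurableSet (Metric.ball p (n : ℝ)) := Metric.isOpen_ball.measurableSet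
      have hSf : m (Metric.ball p (n : ℝ)) ≠ ∞ := (hfin p n).ne
      set c := indc m (Metric.ball p (n : ℝ)) hSm with hc
      have hci : L2i m c := L2i_indc hSm hSf
      have hRk := hL.R_mem t ht r hr k hk
      have hρ := ρtop t ht
      -- the three terms
      have i1 : L2i m (c * (R t r k * ρ t)) := L2i_mul_top hci (mem_top_mul hRk.2 hρ)
      have i2 : L2i m (c * (ρ t * ρ t)) := L2i_mul_top hci (mem_top_mul hρ hρ)
      have A1 : ∫ x, (c * R t r k ^ 2) (Y t x) ∂m = I (c * R t r k ^ 2 * ρ t) := hcv t ht _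
      have A2 : ∫ x, (c * (R t r k * ρ t)) (Y t x) * k (Y r x) ∂m = I (c * R t r k ^ 2 * ρ t) := by
        have h2 := htwo t ht r hr (c * (R t r k * ρ t)) k i1 hk
        have e1 : c * (R t r k * ρ t) * R t r k = c * R t r k ^ 2 * ρ t := by ring
        rw [e1] at h2
        rw [h2, I]
        refine integral_congr_ae ?_
        filter_upwards [mul_ae (R 1 r k) (R 1 t (c * (R t r k * ρ t))), hrepr r hr k hk,
          hrepr t ht _ i1] with x k1 k2 k3
        rw [k1, k2, k3, mul_comm]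
      have A3 : ∫ x, (c * (ρ t * ρ t)) (Y t x) * (k ^ 2) (Y r x) ∂m
          = I (c * R t r k ^ 2 * ρ t) := by
        have h2 := htwo t ht r hr (c * (ρ t * ρ t)) (k ^ 2) i2 (L2i_sq hk)
        have e1 : c * (ρ t * ρ t) * R t r (k ^ 2) = c * R t r k ^ 2 * ρ t := by
          have h3 := hM t ht r hr k k hk hk
          rw [sq k, sq (R t r k), ← h3]; ring
        rw [e1] at h2
        rw [h2, I]
        refine integral_congr_ae ?_
        filter_upwards [mul_ae (R 1 r (k ^ 2)) (R 1 t (c * (ρ t * ρ t))),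
          hrepr r hr _ (L2i_sq hk), hrepr t ht _ i2] with x k1 k2 k3
        rw [k1, k2, k3, mul_comm]
      -- integrability
      have j1 : Integrable (fun x => (c * R t r k ^ 2) (Y t x)) m := by
        have : MemLp (c * R t r k ^ 2 : M →ₘ[m] ℝ) 1 m := mem_mul_top hci.2 (mem_sq hRk.1)
        have h2 : Integrable (c * R t r k ^ 2 : M →ₘ[m] ℝ) (Measure.map (Y t) m) := by
          rw [(hY t ht).2.1, IsMultOp.nu]
          rw [integrable_withDensity_iff_integrable_smul₀'
            ((ρ t).measurable.ennreal_ofReal.aemeasurable)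
            (Eventually.of_forall fun x => ENNReal.ofReal_lt_top)]
          refine (int_of_mem (mem_top_mul this hρ)).congr ?_
          filter_upwards [mul_ae (c * R t r k ^ 2) (ρ t),
            nonneg_iff_ae.1 (hL.ρ_nonneg t ht)] with x k1 k2
          rw [k1, ENNReal.toReal_ofReal k2, smul_eq_mul, mul_comm]
        exact h2.comp_measurable (hY t ht).1
      have j2 : Integrable (fun x => (c * (R t r k * ρ t)) (Y t x) * k (Y r x)) m := by
        have h2 := int_of_mem (mem_mul_22 (hL.R_mem 1 h1 r hr k hk).1 (hL.R_mem 1 h1 t ht _ i1).1)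
        refine h2.congr ?_
        filter_upwards [mul_ae (R 1 r k) (R 1 t (c * (R t r k * ρ t))), hrepr r hr k hk,
          hrepr t ht _ i1] with x k1 k2 k3
        rw [k1, k2, k3, mul_comm]
      have j3 : Integrable (fun x => (c * (ρ t * ρ t)) (Y t x) * (k ^ 2) (Y r x)) m := by
        have h2 := int_of_mem (mem_mul_22 (hL.R_mem 1 h1 r hr _ (L2i_sq hk)).1
          (hL.R_mem 1 h1 t ht _ i2).1)
        refine h2.congr ?_
        filter_upwards [mul_ae (R 1 r (k ^ 2)) (R 1 t (c * (ρ t * ρ t))),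
          hrepr r hr _ (L2i_sq hk), hrepr t ht _ i2] with x k1 k2 k3
        rw [k1, k2, k3, mul_comm]
      have hae : ∀ᵐ x ∂m, (c * R t r k ^ 2) (Y t x)
          - 2 * ((c * (R t r k * ρ t)) (Y t x) * k (Y r x))
          + (c * (ρ t * ρ t)) (Y t x) * (k ^ 2) (Y r x)
          = (Metric.ball p (n : ℝ)).indicator (fun _ => (1 : ℝ)) (Y t x) *
            (R t r k (Y t x) - ρ t (Y t x) * k (Y r x)) ^ 2 := by
        filter_upwards [hmapA t ht (mul_ae c (R t r k ^ 2)), hmapA t ht (sq_ae (R t r k)),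
          hmapA t ht (mul_ae c (R t r k * ρ t)), hmapA t ht (mul_ae (R t r k) (ρ t)),
          hmapA t ht (mul_ae c (ρ t * ρ t)), hmapA t ht (mul_ae (ρ t) (ρ t)),
          hmapA r hr (sq_ae k), hmapA t ht (indc_ae m _ hSm)] with x k1 k2 k3 k4 k5 k6 k7 k8
        rw [k1, k2, k3, k4, k5, k6, k7, k8]; ring
      have hz : ∫ x, (Metric.ball p (n : ℝ)).indicator (fun _ => (1 : ℝ)) (Y t x) *
            (R t r k (Y t x) - ρ t (Y t x) * k (Y r x)) ^ 2 ∂m = 0 := by
        have e1 : ∫ x, ((c * R t r k ^ 2) (Y t x)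
            - 2 * ((c * (R t r k * ρ t)) (Y t x) * k (Y r x))) ∂m
            = I (c * R t r k ^ 2 * ρ t) - 2 * I (c * R t r k ^ 2 * ρ t) := by
          rw [integral_sub j1 (j2.const_mul 2), integral_const_mul, A1, A2]
        have e2 : ∫ x, (((c * R t r k ^ 2) (Y t x)
            - 2 * ((c * (R t r k * ρ t)) (Y t x) * k (Y r x)))
            + (c * (ρ t * ρ t)) (Y t x) * (k ^ 2) (Y r x)) ∂m = 0 := by
          have e3 := integral_add (j1.sub (j2.const_mul 2)) j3
          simp only [Pi.sub_apply] at e3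
          rw [e3, e1, A3]; ring
        rw [← integral_congr_ae hae]; exact e2
      have hint : Integrable (fun x => (Metric.ball p (n : ℝ)).indicator (fun _ => (1 : ℝ)) (Y t x) *
            (R t r k (Y t x) - ρ t (Y t x) * k (Y r x)) ^ 2) m :=
        ((j1.sub (j2.const_mul 2)).add j3).congr hae
      have h0 := (integral_eq_zero_iff_of_nonneg (fun x => mul_nonneg
        (indicator_nonneg (fun _ _ => zero_le_one) _) (sq_nonneg _)) hint).mp hz
      filter_upwards [h0] with x hx hxb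
      simp only [hxb, indicator_of_mem, one_mul, Pi.zero_apply] at hx
      exact sub_eq_zero.mp (pow_eq_zero_iff (two_ne_zero)|>.mp hx)
    filter_upwards [ae_all_iff.mpr key] with x hx
    obtain ⟨n, hn⟩ := exists_nat_gt (dist (Y t x) p)
    exact hx n (Metric.mem_ball.mpr hn)

theorem blk_C3 : Blk_C3.{u} := by
  intro M _ _ _ _ _ m K N P p s₀ C₀ hyp φ ρ R hL hM
  exact blk_C3_aux hyp.std.hfin hL hM

end Vale.Agent.P233.H689
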