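import Mathlib.MeasureTheory.Constructions.Polish.Basic
import Mathlib.MeasureTheory.Constructions.Polish.EmbeddingReal
import Mathlib.MeasureTheory.Measure.MeasureSpaceDef
import Mathlib.MeasureTheory.Function.LpSpace.Basic
import Mathlib.MeasureTheory.Measure.Real

/-!
# Point realisation of homomorphisms of measure algebras
-/

open MeasureTheory Set Filter
open scoped ENNReal

namespace Vale.Agent.P233.Mult

variable {X Y : Type*} [MeasurableSpace X] [MeasurableSpace Y]

theorem bool_induction (P : Set (ℕ → Bool) → Prop) (h0 : P ∅)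
    (hc : ∀ C, MeasurableSet C → P C → P Cᶜ)
    (hU : ∀ C : ℕ → Set (ℕ → Bool), (∀ n, MeasurableSet (C n)) → (∀ n, P (C n)) → P (⋃ n, C n))
    (hg : ∀ n, P {ω | ω n = true}) (C : Set (ℕ → Bool)) (hC : MeasurableSet C) : P C := by
  classical
  have hm : ∀ n, MeasurableSet {ω : ℕ → Bool | ω n = true} := fun n =>
    (measurable_pi_apply (X := fun _ : ℕ => Bool) n) (measurableSet_singleton true)
  have hgen : MeasurableSpace.pi =
      MeasurableSpace.generateFrom (range fun n : ℕ => {ω : ℕ → Bool | ω n = true}) := by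
    refine le_antisymm ?_ (MeasurableSpace.generateFrom_le ?_)
    · refine iSup_le fun n => ?_
      rintro s ⟨t, -, rfl⟩
      have ht : (fun ω : ℕ → Bool => ω n) ⁻¹' t =
          (if true ∈ t then {ω : ℕ → Bool | ω n = true} else ∅) ∪
          (if false ∈ t then {ω : ℕ → Bool | ω n = true}ᶜ else ∅) := by
        ext ω
        by_cases h1 : true ∈ t <;> by_cases h2 : false ∈ t <;> cases h : ω n <;>
          simp [h1, h2, h]
      rw [ht]
      have hn := MeasurableSpace.measurableSet_generateFrom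
        (mem_range_self (f := fun n : ℕ => {ω : ℕ → Bool | ω n = true}) n)
      refine MeasurableSet.union ?_ ?_
      · split_ifs
        · exact hn
        · exact @MeasurableSet.empty _ (MeasurableSpace.generateFrom _)
      · split_ifs
        · exact hn.compl
        · exact @MeasurableSet.empty _ (MeasurableSpace.generateFrom _)
    · rintro _ ⟨n, rfl⟩; exact hm n
  rw [hgen] at hC
  refine MeasurableSpace.generateFrom_induction _ (fun C _ => P C) ?_ h0 ?_ ?_ C hC
  · rintro _ ⟨n, rfl⟩ -; exact hg n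
  · intro t ht h; exact hc t (hgen ▸ ht) h
  · intro s hs h; exact hU s (fun n => hgen ▸ hs n) h

/-- A map of measurable sets, compatible with complements and countable unions modulo null sets,
into a standard Borel space is induced by a point map. -/
theorem exists_map_of_setHom [StandardBorelSpace Y] [Nonempty Y] (μ : Measure X)
    (T : Set Y → Set X) (hT : ∀ B, MeasurableSet B → MeasurableSet (T B))
    (hcompl : ∀ B, MeasurableSet B → T Bᶜ =ᵐ[μ] ((T B)ᶜ : Set X))
    (hU : ∀ B : ℕ → Set Y, (∀ n, MeasurableSet (B n)) →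
      T (⋃ n, B n) =ᵐ[μ] (⋃ n, T (B n) : Set X))
    (huniv : T univ =ᵐ[μ] (univ : Set X)) :
    ∃ f : X → Y, Measurable f ∧ ∀ B, MeasurableSet B → f ⁻¹' B =ᵐ[μ] T B := by
  classical
  set E := MeasurableSpace.natGeneratingSequence Y with hE
  have hEm : ∀ n, MeasurableSet (E n) := fun n =>
    MeasurableSpace.measurableSet_natGeneratingSequence n
  set i : Y → ℕ → Bool := MeasurableSpace.mapNatBool Y with hi
  have him : Measurable i := MeasurableSpace.measurable_mapNatBool Y
  have hinj : Function.Injective i := MeasurableSpace.injective_mapNatBool Y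
  have hemb : MeasurableEmbedding i := him.measurableEmbedding hinj
  have hiE : ∀ n, i ⁻¹' {ω | ω n = true} = E n := by
    intro n; ext y; simp [hi, MeasurableSpace.mapNatBool, hE]
  let g : X → ℕ → Bool := fun x n => decide (x ∈ T (E n))
  have hgE : ∀ n, g ⁻¹' {ω | ω n = true} = T (E n) := by
    intro n; ext x; simp [g]
  have hgm : Measurable g := by
    refine measurable_pi_iff.mpr fun n => ?_
    refine measurable_to_bool ?_
    have : (fun x => g x n) ⁻¹' {true} = T (E n) := by
      ext x; simp [g]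
    rw [this]; exact hT _ (hEm n)
  have hempty : T ∅ =ᵐ[μ] (∅ : Set X) := by
    have h1 := hcompl univ MeasurableSet.univ
    rw [compl_univ] at h1
    refine h1.trans ?_
    have := huniv.compl
    rwa [compl_univ] at this
  have key : ∀ C : Set (ℕ → Bool), MeasurableSet C → g ⁻¹' C =ᵐ[μ] T (i ⁻¹' C) := by
    refine bool_induction _ ?_ ?_ ?_ ?_
    · simpa using hempty.symm
    · intro C hCm hC
      rw [preimage_compl, preimage_compl]
      exact hC.compl.trans (hcompl _ (him hCm)).symm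
    · intro C hCm hC
      rw [preimage_iUnion, preimage_iUnion]
      exact (Filter.EventuallyEq.countable_iUnion fun n => hC n).trans
        (hU _ fun n => him (hCm n)).symm
    · intro n
      rw [hgE, hiE]
      exact EventuallyEq.rfl
  obtain ⟨j, hjm, hj⟩ := hemb.exists_measurable_extend measurable_id fun _ => inferInstance
  refine ⟨j ∘ g, hjm.comp hgm, fun B hB => ?_⟩
  have hr : MeasurableSet (i '' B) := hemb.measurableSet_image.mpr hB
  have h1 : g ⁻¹' range i =ᵐ[μ] (univ : Set X) := by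
    have := key _ hemb.measurableSet_range
    rw [preimage_range] at this
    exact this.trans huniv
  have h2 := key _ hr
  rw [preimage_image_eq _ hinj] at h2
  refine EventuallyEq.trans ?_ h2
  filter_upwards [h1] with x hx
  have hx' : x ∈ g ⁻¹' range i := by
    have : (g ⁻¹' range i) x = (univ : Set X) x := hx
    exact (iff_of_eq this).mpr trivial
  obtain ⟨y, hy⟩ := hx'
  have hjy : j (g x) = y := by rw [← hy]; exact congrFun hj y
  apply propext
  change j (g x) ∈ B ↔ g x ∈ i '' B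
  rw [hjy]
  constructor
  · intro h; exact ⟨y, h, hy⟩
  · rintro ⟨z, hz, hz'⟩
    have : z = y := hinj (hz'.trans hy.symm)
    exact this ▸ hz

/-- A measure preserving map of the sets of finite measure. `m₀` is a reference measure on `Y`:
`T B` is defined for the measurable `B` with `m₀ B < ∞`. -/
structure IsSetHom (m₀ : Measure Y) (μ : Measure X) (ν : Measure Y) (T : Set Y → Set X) :
    Prop where
  fin : ∀ B, MeasurableSet B → m₀ B ≠ ∞ → ν B ≠ ∞
  meas : ∀ B, MeasurableSet B → m₀ B ≠ ∞ → MeasurableSet (T B)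
  measure_eq : ∀ B, MeasurableSet B → m₀ B ≠ ∞ → μ (T B) = ν B
  disj : ∀ B C, MeasurableSet B → MeasurableSet C → m₀ B ≠ ∞ → m₀ C ≠ ∞ → Disjoint B C →
    μ (T B ∩ T C) = 0
  mono : ∀ B C, MeasurableSet B → MeasurableSet C → m₀ C ≠ ∞ → B ⊆ C → μ (T B \ T C) = 0
  exhaust : ∃ B : ℕ → Set Y, (∀ n, MeasurableSet (B n) ∧ m₀ (B n) ≠ ∞) ∧ μ (⋃ n, T (B n))ᶜ = 0

namespace IsSetHom

variable {m₀ : Measure Y} {μ : Measure X} {ν : Measure Y} {T : Set Y → Set X}

theorem ae_le (h : IsSetHom m₀ μ ν T) {B C : Set Y} (hB : MeasurableSet B) (hC : MeasurableSet C)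
    (hCf : m₀ C ≠ ∞) (hBC : B ⊆ C) : T B ≤ᵐ[μ] T C := by
  rw [ae_le_set]; exact h.mono B C hB hC hCf hBC

/-- countable unions inside a set of finite measure -/
theorem iUnion (h : IsSetHom m₀ μ ν T) (B : ℕ → Set Y) (hB : ∀ n, MeasurableSet (B n))
    (hf : m₀ (⋃ n, B n) ≠ ∞) : T (⋃ n, B n) =ᵐ[μ] (⋃ n, T (B n) : Set X) := by
  have hfn : ∀ n, m₀ (B n) ≠ ∞ := fun n => ((measure_mono (subset_iUnion B n)).trans_lt
    (lt_top_iff_ne_top.mpr hf)).ne
  have hUm : MeasurableSet (⋃ n, B n) := MeasurableSet.iUnion hB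
  have hle : (⋃ n, T (B n) : Set X) ≤ᵐ[μ] T (⋃ n, B n) := by
    rw [ae_le_set, iUnion_sdiff]
    exact (measure_iUnion_null_iff).mpr fun n =>
      h.mono _ _ (hB n) hUm hf (subset_iUnion B n)
  have hdm : ∀ n, MeasurableSet (disjointed B n) := fun n => MeasurableSet.disjointed hB n
  have hdf : ∀ n, m₀ (disjointed B n) ≠ ∞ := fun n =>
    ((measure_mono (disjointed_subset B n)).trans_lt (lt_top_iff_ne_top.mpr (hfn n))).ne
  have h1 : μ (⋃ n, T (disjointed B n)) = ν (⋃ n, B n) := by
    rw [measure_iUnion₀]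
    · rw [← iUnion_disjointed, measure_iUnion (disjoint_disjointed B) hdm]
      exact tsum_congr fun n => h.measure_eq _ (hdm n) (hdf n)
    · intro i j hij
      exact h.disj _ _ (hdm i) (hdm j) (hdf i) (hdf j) (disjoint_disjointed B hij)
    · exact fun n => (h.meas _ (hdm n) (hdf n)).nullMeasurableSet
  have h2 : (⋃ n, T (disjointed B n) : Set X) ≤ᵐ[μ] (⋃ n, T (B n) : Set X) := by
    refine Filter.EventuallyLE.countable_iUnion fun n => ?_
    exact h.ae_le (hdm n) (hB n) (hfn n) (disjointed_subset B n)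
  have h3 : ν (⋃ n, B n) ≤ μ (⋃ n, T (B n)) := by
    rw [← h1]; exact measure_mono_ae h2
  have h4 : μ (T (⋃ n, B n)) = ν (⋃ n, B n) := h.measure_eq _ hUm hf
  refine (ae_eq_of_ae_subset_of_measure_ge hle ?_ ?_ ?_).symm
  · rw [h4]; exact h3
  · exact (MeasurableSet.iUnion fun n => h.meas _ (hB n) (hfn n)).nullMeasurableSet
  · rw [h4]; exact h.fin _ hUm hf

theorem union (h : IsSetHom m₀ μ ν T) {B C : Set Y} (hB : MeasurableSet B) (hC : MeasurableSet C)
    (hBf : m₀ B ≠ ∞) (hCf : m₀ C ≠ ∞) : T (B ∪ C) =ᵐ[μ] (T B ∪ T C : Set X) := by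
  have h1 := h.iUnion (fun n => if n = 0 then B else C)
    (fun n => by split_ifs <;> assumption) (by
      have : (⋃ n : ℕ, (if n = 0 then B else C)) ⊆ B ∪ C := by
        refine iUnion_subset fun n => ?_
        split_ifs
        · exact subset_union_left
        · exact subset_union_right
      exact ((measure_mono this).trans_lt (measure_union_lt_top (lt_top_iff_ne_top.mpr hBf)
        (lt_top_iff_ne_top.mpr hCf))).ne)
  have h2 : (⋃ n : ℕ, (if n = 0 then B else C)) = B ∪ C := by
    ext y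
    simp only [mem_iUnion, mem_union]
    constructor
    · rintro ⟨n, hn⟩
      split_ifs at hn
      · exact Or.inl hn
      · exact Or.inr hn
    · rintro (hy | hy)
      · exact ⟨0, by simpa using hy⟩
      · exact ⟨1, by simpa using hy⟩
  have h3 : (⋃ n : ℕ, T (if n = 0 then B else C)) = T B ∪ T C := by
    ext y
    simp only [mem_iUnion, mem_union]
    constructor
    · rintro ⟨n, hn⟩
      split_ifs at hn
      · exact Or.inl hn
      · exact Or.inr hn
    · rintro (hy | hy)
      · exact ⟨0, by simpa using hy⟩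
      · exact ⟨1, by simpa using hy⟩
  rw [h2, h3] at h1
  exact h1

/-- Point realisation of a measure preserving homomorphism of the sets of finite measure. -/
theorem exists_map [StandardBorelSpace Y] [Nonempty Y] [SigmaFinite m₀] (h : IsSetHom m₀ μ ν T) :
    ∃ f : X → Y, Measurable f ∧ Measure.map f μ = ν ∧
      ∀ B, MeasurableSet B → m₀ B ≠ ∞ → f ⁻¹' B =ᵐ[μ] T B := by
  -- a disjoint exhaustion of `Y` by sets of finite measure
  let Z : ℕ → Set Y := disjointed (spanningSets m₀)
  have hZm : ∀ n, MeasurableSet (Z n) := fun n =>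
    MeasurableSet.disjointed (measurableSet_spanningSets m₀) n
  have hZf : ∀ n, m₀ (Z n) ≠ ∞ := fun n =>
    ((measure_mono (disjointed_subset _ n)).trans_lt (measure_spanningSets_lt_top m₀ n)).ne
  have hZd : Pairwise (Function.onFun Disjoint Z) := disjoint_disjointed _
  have hZU : (⋃ n, Z n) = univ := by
    rw [iUnion_disjointed]; exact iUnion_spanningSets m₀
  have hBZm : ∀ B, MeasurableSet B → ∀ n, MeasurableSet (B ∩ Z n) := fun B hB n => hB.inter (hZm n)
  have hBZf : ∀ B : Set Y, ∀ n, m₀ (B ∩ Z n) ≠ ∞ := fun B n =>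
    ((measure_mono inter_subset_right).trans_lt (lt_top_iff_ne_top.mpr (hZf n))).ne
  have hBU : ∀ B : Set Y, (⋃ n, B ∩ Z n) = B := fun B => by
    rw [← inter_iUnion, hZU, inter_univ]
  let S : Set Y → Set X := fun B => ⋃ n, T (B ∩ Z n)
  have hSm : ∀ B, MeasurableSet B → MeasurableSet (S B) := fun B hB =>
    MeasurableSet.iUnion fun n => h.meas _ (hBZm B hB n) (hBZf B n)
  have hST : ∀ B, MeasurableSet B → m₀ B ≠ ∞ → S B =ᵐ[μ] T B := by
    intro B hB hBf
    have := h.iUnion (fun n => B ∩ Z n) (hBZm B hB) (by rw [hBU]; exact hBf)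
    rw [hBU] at this
    exact this.symm
  have hSU : ∀ B : ℕ → Set Y, (∀ n, MeasurableSet (B n)) →
      S (⋃ n, B n) =ᵐ[μ] (⋃ n, S (B n) : Set X) := by
    intro B hB
    have h1 : ∀ k, T ((⋃ n, B n) ∩ Z k) =ᵐ[μ] (⋃ n, T (B n ∩ Z k) : Set X) := by
      intro k
      have := h.iUnion (fun n => B n ∩ Z k) (fun n => hBZm _ (hB n) k) (by
        rw [← iUnion_inter]; exact hBZf _ k)
      rwa [← iUnion_inter] at this
    refine (Filter.EventuallyEq.countable_iUnion h1).trans ?_
    rw [iUnion_comm]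
    exact EventuallyEq.rfl
  have hSuniv : S univ =ᵐ[μ] (univ : Set X) := by
    obtain ⟨B, hB, hB0⟩ := h.exhaust
    rw [eventuallyEq_univ]
    change μ (S univ)ᶜ = 0
    have h1 : ∀ n, T (B n) ≤ᵐ[μ] S univ := by
      intro n
      refine (hST _ (hB n).1 (hB n).2).symm.le.trans ?_
      refine Filter.EventuallyLE.countable_iUnion fun k => ?_
      exact h.ae_le (hBZm _ (hB n).1 k) (hBZm _ MeasurableSet.univ k) (hBZf _ k)
        (inter_subset_inter_left _ (subset_univ _))
    have h2 : (⋃ n, T (B n) : Set X) ≤ᵐ[μ] S univ := by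
      rw [ae_le_set, iUnion_sdiff]
      exact (measure_iUnion_null_iff).mpr fun n => (ae_le_set.mp (h1 n))
    have h3 : (S univ)ᶜ ≤ᵐ[μ] ((⋃ n, T (B n))ᶜ : Set X) := h2.compl
    exact measure_mono_null_ae h3 hB0
  have hScompl : ∀ B, MeasurableSet B → S Bᶜ =ᵐ[μ] ((S B)ᶜ : Set X) := by
    intro B hB
    have hd : μ (S B ∩ S Bᶜ) = 0 := by
      have : S B ∩ S Bᶜ ⊆ ⋃ n, ⋃ k, T (B ∩ Z n) ∩ T (Bᶜ ∩ Z k) := by
        rintro x ⟨hx1, hx2⟩
        obtain ⟨n, hn⟩ := mem_iUnion.mp hx1
        obtain ⟨k, hk⟩ := mem_iUnion.mp hx2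
        exact mem_iUnion.mpr ⟨n, mem_iUnion.mpr ⟨k, hn, hk⟩⟩
      refine measure_mono_null this ?_
      refine (measure_iUnion_null_iff).mpr fun n => (measure_iUnion_null_iff).mpr fun k => ?_
      refine h.disj _ _ (hBZm _ hB n) (hBZm _ hB.compl k) (hBZf _ n) (hBZf _ k) ?_
      exact (disjoint_compl_right (a := B)).mono inter_subset_left inter_subset_left
    have hu : μ (S B ∪ S Bᶜ)ᶜ = 0 := by
      have h1 := hSU (fun n => if n = 0 then B else Bᶜ)
        (fun n => by split_ifs; exacts [hB, hB.compl])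
      have h2 : (⋃ n : ℕ, (if n = 0 then B else Bᶜ)) = univ := by
        ext y
        simp only [mem_iUnion, mem_univ, iff_true]
        by_cases hy : y ∈ B
        · exact ⟨0, by simpa using hy⟩
        · exact ⟨1, by simpa using hy⟩
      have h3 : (⋃ n : ℕ, S (if n = 0 then B else Bᶜ)) ⊆ S B ∪ S Bᶜ := by
        refine iUnion_subset fun n => ?_
        split_ifs
        · exact subset_union_left
        · exact subset_union_right
      rw [h2] at h1
      have h4 : (⋃ n : ℕ, S (if n = 0 then B else Bᶜ)) =ᵐ[μ] (univ : Set X) :=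
        h1.symm.trans hSuniv
      rw [eventuallyEq_univ] at h4
      exact measure_mono_null (compl_subset_compl.mpr h3) h4
    refine (ae_eq_set.mpr ⟨?_, ?_⟩)
    · rw [Set.sdiff_compl, inter_comm]; exact hd
    · refine measure_mono_null ?_ hu
      intro x hx hx'
      rcases hx' with hx' | hx'
      · exact hx.1 hx'
      · exact hx.2 hx'
  obtain ⟨f, hfm, hf⟩ := exists_map_of_setHom μ S hSm hScompl hSU hSuniv
  refine ⟨f, hfm, ?_, fun B hB hBf => (hf B hB).trans (hST B hB hBf)⟩
  ext B hB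
  rw [Measure.map_apply hfm hB, measure_congr (hf B hB)]
  have h1 : μ (S B) = ∑' n, μ (T (B ∩ Z n)) := by
    refine measure_iUnion₀ ?_ fun n => (h.meas _ (hBZm B hB n) (hBZf B n)).nullMeasurableSet
    intro i j hij
    exact h.disj _ _ (hBZm _ hB i) (hBZm _ hB j) (hBZf _ i) (hBZf _ j)
      ((hZd hij).mono inter_subset_right inter_subset_right)
  rw [h1]
  have h2 : ν B = ∑' n, ν (B ∩ Z n) := by
    conv_lhs => rw [← hBU B]
    refine measure_iUnion ?_ (hBZm B hB)
    intro i j hij
    exact (hZd hij).mono inter_subset_right inter_subset_right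
  rw [h2]
  exact tsum_congr fun n => h.measure_eq _ (hBZm B hB n) (hBZf B n)

/-- uniqueness -/
theorem map_unique [StandardBorelSpace Y] [SigmaFinite m₀] {f g : X → Y} (h : ∀ B, MeasurableSet B → m₀ B ≠ ∞ → f ⁻¹' B =ᵐ[μ] g ⁻¹' B) :
    f =ᵐ[μ] g := by
  have h1 : ∀ B, MeasurableSet B → f ⁻¹' B =ᵐ[μ] g ⁻¹' B := by
    intro B hB
    have hBU : (⋃ n, B ∩ spanningSets m₀ n) = B := by
      rw [← inter_iUnion, iUnion_spanningSets, inter_univ]
    rw [← hBU, preimage_iUnion, preimage_iUnion]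
    refine Filter.EventuallyEq.countable_iUnion fun n => h _ (hB.inter
      (measurableSet_spanningSets m₀ n)) ?_
    exact ((measure_mono inter_subset_right).trans_lt (measure_spanningSets_lt_top m₀ n)).ne
  have h2 : ∀ᵐ x ∂μ, ∀ n, (f x ∈ MeasurableSpace.natGeneratingSequence Y n ↔
      g x ∈ MeasurableSpace.natGeneratingSequence Y n) := by
    refine ae_all_iff.mpr fun n => ?_
    filter_upwards [h1 _ (MeasurableSpace.measurableSet_natGeneratingSequence n)] with x hx
    exact iff_of_eq hx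
  filter_upwards [h2] with x hx
  apply MeasurableSpace.injective_mapNatBool Y
  funext n
  simp only [MeasurableSpace.mapNatBool]
  congr 1
  exact propext (hx n)

end IsSetHom

/-! ### two-time forms -/

/-- `β A B = P(X_s ∈ A, X_t ∈ B)` for sets of finite measure; `μ`, `ν` are the marginals
(possibly infinite). -/
structure IsForm (m₀ : Measure Y) (μ : Measure X) (ν : Measure Y) (β : Set X → Set Y → ℝ) : Prop where
  fin : ∀ B, MeasurableSet B → m₀ B ≠ ∞ → ν B ≠ ∞
  nonneg : ∀ A B, MeasurableSet A → μ A ≠ ∞ → MeasurableSet B → m₀ B ≠ ∞ → 0 ≤ β A B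
  add_left : ∀ A A' B, MeasurableSet A → μ A ≠ ∞ → MeasurableSet A' → μ A' ≠ ∞ →
    MeasurableSet B → m₀ B ≠ ∞ → Disjoint A A' → β (A ∪ A') B = β A B + β A' B
  add_right : ∀ A B B', MeasurableSet A → μ A ≠ ∞ → MeasurableSet B → m₀ B ≠ ∞ →
    MeasurableSet B' → m₀ B' ≠ ∞ → Disjoint B B' → β A (B ∪ B') = β A B + β A B'
  le_left : ∀ A B, MeasurableSet A → μ A ≠ ∞ → MeasurableSet B → m₀ B ≠ ∞ → β A B ≤ μ.real A
  le_right : ∀ A B, MeasurableSet A → μ A ≠ ∞ → MeasurableSet B → m₀ B ≠ ∞ → β A B ≤ ν.real B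

namespace IsForm

variable {m₀ : Measure Y} {μ : Measure X} {ν : Measure Y} {β : Set X → Set Y → ℝ}

theorem fin_of_subset {μ : Measure X} {A A' : Set X} (h : A ⊆ A') (hA' : μ A' ≠ ∞) : μ A ≠ ∞ :=
  ((measure_mono h).trans_lt (lt_top_iff_ne_top.mpr hA')).ne

theorem split_left (h : IsForm m₀ μ ν β) {A A' : Set X} {B : Set Y} (hA : MeasurableSet A)
    (hAf : μ A ≠ ∞) (hA' : MeasurableSet A') (hB : MeasurableSet B) (hBf : m₀ B ≠ ∞) :
    β A B = β (A ∩ A') B + β (A \ A') B := by
  conv_lhs => rw [← inter_union_sdiff A A']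
  exact h.add_left _ _ _ (hA.inter hA') (fin_of_subset inter_subset_left hAf) (hA.diff hA')
    (fin_of_subset sdiff_subset hAf) hB hBf (disjoint_sdiff_right.mono_left inter_subset_right)

theorem split_right (h : IsForm m₀ μ ν β) {A : Set X} {B B' : Set Y} (hA : MeasurableSet A)
    (hAf : μ A ≠ ∞) (hB' : MeasurableSet B') (hB : MeasurableSet B) (hBf : m₀ B ≠ ∞) :
    β A B = β A (B ∩ B') + β A (B \ B') := by
  conv_lhs => rw [← inter_union_sdiff B B']
  exact h.add_right _ _ _ hA hAf (hB.inter hB') (fin_of_subset inter_subset_left hBf) (hB.diff hB')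
    (fin_of_subset sdiff_subset hBf) (disjoint_sdiff_right.mono_left inter_subset_right)

theorem real_split {μ : Measure X} {A A' : Set X} (hA' : MeasurableSet A')
    (hAf : μ A ≠ ∞) : μ.real A = μ.real (A ∩ A') + μ.real (A \ A') :=
  (measureReal_inter_add_sdiff hA' hAf).symm

/-- `A` and `B` are the same event -/
def Same (μ : Measure X) (ν : Measure Y) (β : Set X → Set Y → ℝ) (A : Set X) (B : Set Y) : Prop :=
  MeasurableSet A ∧ μ A ≠ ∞ ∧ β A B = μ.real A ∧ β A B = ν.real B

theorem same_of_dd (h : IsForm m₀ μ ν β) {A : Set X} {B : Set Y} (hA : MeasurableSet A)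
    (hAf : μ A ≠ ∞) (hB : MeasurableSet B) (hBf : m₀ B ≠ ∞)
    (hd : μ.real A + ν.real B - 2 * β A B ≤ 0) : Same μ ν β A B := by
  have h1 := h.le_left A B hA hAf hB hBf
  have h2 := h.le_right A B hA hAf hB hBf
  exact ⟨hA, hAf, by linarith, by linarith⟩

/-- subsets of `A` see only `B` -/
theorem inter_eq (h : IsForm m₀ μ ν β) {A A' : Set X} {B : Set Y} (hB : MeasurableSet B)
    (hBf : m₀ B ≠ ∞) (hs : Same μ ν β A B) (hA' : MeasurableSet A') :
    β (A' ∩ A) B = μ.real (A' ∩ A) := by
  obtain ⟨hA, hAf, h1, h2⟩ := hs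
  have e1 := h.split_left hA hAf hA' hB hBf
  have e2 := real_split (μ := μ) hA' hAf
  have e3 := h.le_left (A ∩ A') B (hA.inter hA') (fin_of_subset inter_subset_left hAf) hB hBf
  have e4 := h.le_left (A \ A') B (hA.diff hA') (fin_of_subset sdiff_subset hAf) hB hBf
  rw [inter_comm]
  linarith

/-- sets disjoint from `A` do not see `B` -/
theorem diff_eq (h : IsForm m₀ μ ν β) {A A' : Set X} {B : Set Y} (hB : MeasurableSet B)
    (hBf : m₀ B ≠ ∞) (hs : Same μ ν β A B) (hA' : MeasurableSet A') (hAf' : μ A' ≠ ∞) :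
    β (A' \ A) B = 0 := by
  obtain ⟨hA, hAf, h1, h2⟩ := hs
  have hfd : μ (A' \ A) ≠ ∞ := fin_of_subset sdiff_subset hAf'
  have e1 := h.add_left A (A' \ A) B hA hAf (hA'.diff hA) hfd hB hBf disjoint_sdiff_right
  have e2 := h.le_right (A ∪ A' \ A) B (hA.union (hA'.diff hA))
    (measure_union_ne_top hAf hfd) hB hBf
  have e3 := h.nonneg (A' \ A) B (hA'.diff hA) hfd hB hBf
  linarith

theorem eq_real_inter (h : IsForm m₀ μ ν β) {A A' : Set X} {B : Set Y} (hB : MeasurableSet B)
    (hBf : m₀ B ≠ ∞) (hs : Same μ ν β A B) (hA' : MeasurableSet A') (hAf' : μ A' ≠ ∞) :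
    β A' B = μ.real (A' ∩ A) := by
  rw [h.split_left hA' hAf' hs.1 hB hBf, h.inter_eq hB hBf hs hA', h.diff_eq hB hBf hs hA' hAf',
    add_zero]

theorem isSetHom [SigmaFinite μ] (h : IsForm m₀ μ ν β) (T : Set Y → Set X)
    (hT : ∀ B, MeasurableSet B → m₀ B ≠ ∞ → Same μ ν β (T B) B)
    (hfull : ∀ A, MeasurableSet A → μ A ≠ ∞ → ∀ ε > 0, ∃ B, MeasurableSet B ∧ m₀ B ≠ ∞ ∧
      μ.real A - ε ≤ β A B) : IsSetHom m₀ μ ν T where
  fin := h.fin
  meas B hB hBf := (hT B hB hBf).1
  measure_eq B hB hBf := by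
    obtain ⟨hA, hAf, h1, h2⟩ := hT B hB hBf
    have : μ.real (T B) = ν.real B := by linarith
    exact (ENNReal.toReal_eq_toReal_iff' hAf (h.fin B hB hBf)).mp this
  disj B C hB hC hBf hCf hBC := by
    have hsB := hT B hB hBf
    have hsC := hT C hC hCf
    have hi : MeasurableSet (T B ∩ T C) := hsB.1.inter hsC.1
    have hif : μ (T B ∩ T C) ≠ ∞ := fin_of_subset inter_subset_left hsB.2.1
    have e1 := h.eq_real_inter hB hBf hsB hi hif
    have e2 := h.eq_real_inter hC hCf hsC hi hif
    rw [inter_eq_left.mpr (inter_subset_left (s := T B) (t := T C))] at e1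
    rw [inter_eq_left.mpr (inter_subset_right (s := T B) (t := T C))] at e2
    have e3 := h.add_right (T B ∩ T C) B C hi hif hB hBf hC hCf hBC
    have e4 := h.le_left (T B ∩ T C) (B ∪ C) hi hif (hB.union hC) (measure_union_ne_top hBf hCf)
    have e5 : μ.real (T B ∩ T C) = 0 := le_antisymm (by linarith) measureReal_nonneg
    exact (measureReal_eq_zero_iff hif).mp e5
  mono B C hB hC hCf hBC := by
    have hBf : m₀ B ≠ ∞ := fin_of_subset hBC hCf
    have hsB := hT B hB hBf
    have hsC := hT C hC hCf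
    have hdm : MeasurableSet (T B \ T C) := hsB.1.diff hsC.1
    have hdf : μ (T B \ T C) ≠ ∞ := fin_of_subset sdiff_subset hsB.2.1
    have e1 := h.eq_real_inter hB hBf hsB hdm hdf
    rw [inter_eq_left.mpr (sdiff_subset (s := T B) (t := T C))] at e1
    have e2 := h.diff_eq hC hCf hsC hsB.1 hsB.2.1
    have e3 := h.split_right hdm hdf hB hC hCf
    rw [inter_eq_right.mpr hBC] at e3
    have e4 := h.nonneg (T B \ T C) (C \ B) hdm hdf (hC.diff hB)
      (fin_of_subset sdiff_subset hCf)
    have e5 : μ.real (T B \ T C) = 0 := le_antisymm (by linarith) measureReal_nonneg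
    exact (measureReal_eq_zero_iff hdf).mp e5
  exhaust := by
    choose! B hB using fun k : ℕ × ℕ => hfull (spanningSets μ k.1)
      (measurableSet_spanningSets μ k.1) (measure_spanningSets_lt_top μ k.1).ne
      (1 / ((k.2 : ℝ) + 1)) (by positivity)
    refine ⟨fun n => B (Nat.unpair n), fun n => ⟨(hB _).1, (hB _).2.1⟩, ?_⟩
    have h1 : ∀ k, μ (spanningSets μ k \ ⋃ n, T (B (Nat.unpair n))) = 0 := by
      intro k
      have hfin : μ (spanningSets μ k \ ⋃ n, T (B (Nat.unpair n))) ≠ ∞ :=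
        fin_of_subset sdiff_subset (measure_spanningSets_lt_top μ k).ne
      rw [← measureReal_eq_zero_iff hfin]
      refine le_antisymm ?_ measureReal_nonneg
      refine le_of_forall_pos_le_add fun ε hε => ?_
      obtain ⟨j, hj⟩ := exists_nat_one_div_lt hε
      obtain ⟨hb1, hb2, hb3⟩ := hB (k, j)
      dsimp only at hb3
      have hs := hT _ hb1 hb2
      have e1 := h.eq_real_inter hb1 hb2 hs (measurableSet_spanningSets μ k)
        (measure_spanningSets_lt_top μ k).ne
      have e2 := real_split (μ := μ) (A := spanningSets μ k) hs.1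
        (measure_spanningSets_lt_top μ k).ne
      have e3 : μ.real (spanningSets μ k \ ⋃ n, T (B (Nat.unpair n))) ≤
          μ.real (spanningSets μ k \ T (B (k, j))) := by
        refine measureReal_mono ?_ (fin_of_subset sdiff_subset (measure_spanningSets_lt_top μ k).ne)
        refine sdiff_subset_sdiff_right ?_
        have := subset_iUnion (fun n => T (B (Nat.unpair n))) (Nat.pair k j)
        simpa using this
      linarith
    have h2 : (⋃ n, T (B (Nat.unpair n)))ᶜ ⊆
        ⋃ k, (spanningSets μ k \ ⋃ n, T (B (Nat.unpair n))) := by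
      intro x hx
      have : x ∈ (⋃ k, spanningSets μ k) := by rw [iUnion_spanningSets]; trivial
      obtain ⟨k, hk⟩ := mem_iUnion.mp this
      exact mem_iUnion.mpr ⟨k, hk, hx⟩
    exact measure_mono_null h2 (measure_iUnion_null_iff.mpr h1)

/-- A deterministic two-time form is given by a point map. -/
theorem exists_map [StandardBorelSpace Y] [Nonempty Y] [SigmaFinite μ] [SigmaFinite m₀]
    (h : IsForm m₀ μ ν β)
    (hdet : ∀ B, MeasurableSet B → m₀ B ≠ ∞ → ∃ A, MeasurableSet A ∧ μ A ≠ ∞ ∧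
      μ.real A + ν.real B - 2 * β A B ≤ 0)
    (hfull : ∀ A, MeasurableSet A → μ A ≠ ∞ → ∀ ε > 0, ∃ B, MeasurableSet B ∧ m₀ B ≠ ∞ ∧
      μ.real A - ε ≤ β A B) :
    ∃ f : X → Y, Measurable f ∧ Measure.map f μ = ν ∧
      ∀ A B, MeasurableSet A → μ A ≠ ∞ → MeasurableSet B → m₀ B ≠ ∞ →
        β A B = μ.real (A ∩ f ⁻¹' B) := by
  classical
  let T : Set Y → Set X := fun B =>
    if hB : MeasurableSet B ∧ m₀ B ≠ ∞ then (hdet B hB.1 hB.2).choose else ∅
  have hT : ∀ B, MeasurableSet B → m₀ B ≠ ∞ → Same μ ν β (T B) B := by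
    intro B hB hBf
    have e : T B = (hdet B hB hBf).choose := dif_pos ⟨hB, hBf⟩
    have hs := (hdet B hB hBf).choose_spec
    rw [e]
    exact h.same_of_dd hs.1 hs.2.1 hB hBf hs.2.2
  obtain ⟨f, hfm, hmap, hf⟩ := (h.isSetHom T hT hfull).exists_map
  refine ⟨f, hfm, hmap, fun A B hA hAf hB hBf => ?_⟩
  rw [h.eq_real_inter hB hBf (hT B hB hBf) hA hAf]
  refine measureReal_congr ?_
  exact (ae_eq_refl A).inter (hf B hB hBf).symm

end IsForm

end Vale.Agent.P233.Mult
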